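import Mathlib
import Crest.Prelude.Def_ModularData

/-! Interface for the linear lifting theorem behind the Kadison–Kastler stability (S0103).
The proofs of all tasks are in `Crest.Agent.H3.KK.Plan`. -/

set_option autoImplicit false
open scoped InnerProductSpace
open Crest.OpAlg

namespace Crest.Agent.H3.KK

universe u

section
variable {H : Type*} [NormedAddCommGroup H] [InnerProductSpace ℂ H] [CompleteSpace H]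

/-- One-sided near inclusion. -/
def Near (δ : ℝ) (A B : Set (H →L[ℂ] H)) : Prop := ∀ x ∈ A, ∃ y ∈ B, ‖x - y‖ ≤ δ * ‖x‖

/-- Two-sided closeness of the algebras and of their commutants. -/
def Close (δ : ℝ) (M N : VonNeumannAlgebra H) : Prop :=
  Near δ (M : Set (H →L[ℂ] H)) N ∧ Near δ (N : Set (H →L[ℂ] H)) M ∧
    Near δ (M.commutant : Set (H →L[ℂ] H)) N.commutant ∧
    Near δ (N.commutant : Set (H →L[ℂ] H)) M.commutant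

/-- A linear map from `A` to `B` close to the identity. -/
def Lift (c : ℝ) (A B : Set (H →L[ℂ] H)) : Prop :=
  ∃ φ : (H →L[ℂ] H) →ₗ[ℂ] (H →L[ℂ] H), ∀ x ∈ A, φ x ∈ B ∧ ‖φ x - x‖ ≤ c * ‖x‖

/-- A cyclic and separating unit vector. -/
def Std (M : VonNeumannAlgebra H) (ξ : H) : Prop :=
  ‖ξ‖ = 1 ∧ (∀ a ∈ M, a ξ = 0 → a = 0) ∧ ∀ a ∈ M.commutant, a ξ = 0 → a = 0

/-- The two algebras have the same central projections. -/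
def SameZ (M N : VonNeumannAlgebra H) : Prop :=
  ∀ q : H →L[ℂ] H, IsStarProjection q →
    ((q ∈ M ∧ q ∈ M.commutant) ↔ (q ∈ N ∧ q ∈ N.commutant))

/-- Modular data: `D = log Δ` through its calculus, and the conjugation `J`. -/
structure MD (M : VonNeumannAlgebra H) (ξ : H) where
  D : LineCalculus H
  J : H ≃ₗᵢ⋆[ℂ] H
  J_J : ∀ x, J (J x) = x
  J_vac : J ξ = ξ
  wave_vac : ∀ t, D.wave t ξ = ξ
  flow_mem : ∀ t, ∀ a ∈ M, D.wave t * a * D.wave (-t) ∈ M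
  flow_mem' : ∀ t, ∀ a ∈ M.commutant, D.wave t * a * D.wave (-t) ∈ M.commutant
  jm : ∀ a ∈ M, ∃ b ∈ M.commutant, ∀ v, b v = J (a (J v))
  jm' : ∀ a ∈ M.commutant, ∃ b ∈ M, ∀ v, b v = J (a (J v))
  half : ∀ a ∈ M, D.HalfExp (a ξ) (J (star a ξ))
  half' : ∀ a ∈ M.commutant, D.HalfExp (J (star a ξ)) (a ξ)
  cent : ∀ q ∈ M, q ∈ M.commutant → ∀ t, D.wave t * q = q * D.wave t

variable {K : Type*} [NormedAddCommGroup K] [InnerProductSpace ℂ K] [CompleteSpace K]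

/-- An amplification `x ↦ x ⊗ 1`: images of von Neumann algebras are bicommutant closed. -/
def Amp (π : (H →L[ℂ] H) →⋆ₐ[ℂ] (K →L[ℂ] K)) : Prop :=
  ∀ (P : VonNeumannAlgebra H),
    ∀ T ∈ ((π '' (P : Set (H →L[ℂ] H))).centralizer).centralizer, ∃ x ∈ P, T = π x ∧ ‖x‖ ≤ ‖T‖

variable (H K) in
/-- The abstract features of `L²(μ; H)`: constant fields `π`, indicators `𝓟`, slices `ι`. -/
structure FieldData where
  π : (H →L[ℂ] H) →⋆ₐ[ℂ] (K →L[ℂ] K)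
  amp : Amp π
  𝓟 : Set (K →L[ℂ] K)
  comm : ∀ p ∈ 𝓟, ∀ x, p * π x = π x * p
  E : Type
  ι : E → H →L[ℂ] K
  norm_ι : ∀ e, ‖ι e‖ ≤ 1
  π_ι : ∀ e x v, π x (ι e v) = ι e (x v)
  loc : ∀ T : K →L[ℂ] K, (∀ p ∈ 𝓟, p * T = T * p) → ∀ c : ℝ, 0 ≤ c →
    (∀ e, ‖(ContinuousLinearMap.adjoint (ι e)) ∘L T ∘L ι e‖ ≤ c) → ‖T‖ ≤ c

/-- Good limits of averages of `Z`. -/
def Good (F : FieldData H K) (M : VonNeumannAlgebra H) (Z : K →L[ℂ] K) (ε : ℝ) (b : K →L[ℂ] K) :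
    Prop :=
  ‖b‖ ≤ 1 ∧ (∀ p ∈ F.𝓟, p * b = b * p) ∧
    (∀ x ∈ M, ‖b * F.π x - F.π x * b‖ ≤ ε * ‖x‖) ∧
    ∀ y ∈ M.commutant, ‖star Z * b * F.π y - F.π y * (star Z * b)‖ ≤ ε * ‖y‖

end

/-- Hyperreflexivity (S0165 and Arveson's distance formula). -/
def HR (C : ℝ) : Prop :=
  ∀ (K : Type u) [NormedAddCommGroup K] [InnerProductSpace ℂ K] [CompleteSpace K]
    (P : VonNeumannAlgebra K) (Y : K →L[ℂ] K) (g : ℝ), 0 ≤ g →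
    (∀ a ∈ P, ‖Y * a - a * Y‖ ≤ g * ‖a‖) → ∃ y ∈ P.commutant, ‖Y - y‖ ≤ C * g

/-- Task F: the lifting theorem when one algebra has a faithful trace vector. -/
def FinLift : Prop :=
  ∀ c : ℝ, 0 < c → ∃ δ : ℝ, 0 < δ ∧
    ∀ (K : Type u) [NormedAddCommGroup K] [InnerProductSpace ℂ K] [CompleteSpace K]
      (P Q : VonNeumannAlgebra K) (ζ : K),
      (∀ a ∈ P, ∀ b ∈ P, ⟪ζ, (a * b) ζ⟫_ℂ = ⟪ζ, (b * a) ζ⟫_ℂ) → (∀ a ∈ P, a ζ = 0 → a = 0) →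
      Close δ P Q → Lift c (P : Set (K →L[ℂ] K)) Q

/-- The goal. -/
def GenLift : Prop :=
  ∀ c : ℝ, 0 < c → ∃ δ : ℝ, 0 < δ ∧
    ∀ (H : Type u) [NormedAddCommGroup H] [InnerProductSpace ℂ H] [CompleteSpace H]
      (M N : VonNeumannAlgebra H), Close δ M N → Lift c (N : Set (H →L[ℂ] H)) M

/-- The goal in standard position. -/
def StdLift : Prop :=
  ∀ c : ℝ, 0 < c → ∃ δ : ℝ, 0 < δ ∧
    ∀ (H : Type u) [NormedAddCommGroup H] [InnerProductSpace ℂ H] [CompleteSpace H]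
      [TopologicalSpace.SeparableSpace H] (M N : VonNeumannAlgebra H) (ξ : H),
      Std M ξ → Std N ξ → SameZ M N → Close δ M N → Lift c (N : Set (H →L[ℂ] H)) M

/-- Task T: the Tomita–Takesaki theorem. -/
def TT : Prop :=
  ∀ (H : Type u) [NormedAddCommGroup H] [InnerProductSpace ℂ H] [CompleteSpace H]
    (M : VonNeumannAlgebra H) (ξ : H), Std M ξ → Nonempty (MD M ξ)

/-- Task A: state preserving Kraus families almost attain the value of a good limit. -/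
def DLHB : Prop :=
  ∃ C : ℝ, 0 ≤ C ∧ ∀ (H K : Type u) [NormedAddCommGroup H] [InnerProductSpace ℂ H] [CompleteSpace H]
    [NormedAddCommGroup K] [InnerProductSpace ℂ K] [CompleteSpace K] (F : FieldData H K)
    (M : VonNeumannAlgebra H) (Z : K →L[ℂ] K) (ε : ℝ), 0 ≤ ε → Z ∈ unitary (K →L[ℂ] K) →
    (∀ p ∈ F.𝓟, p * Z = Z * p) →
    (∀ x ∈ M, ∀ y ∈ M.commutant,
      ‖Z * F.π y * star Z * F.π x - F.π x * (Z * F.π y * star Z)‖ ≤ ε * ‖x‖ * ‖y‖) →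
    (∀ T₀ : K →L[ℂ] K, ∀ r : ℝ, T₀ ∈ (F.π '' (M : Set (H →L[ℂ] H))).centralizer → ‖Z - T₀‖ ≤ r →
      ∃ b, Good F M Z (C * ε) b ∧ ‖b - T₀‖ ≤ r) ∧
    ∀ (η : H) (η' : K) (ε' : ℝ), 0 < ε' → ∃ b, Good F M Z (C * ε) b ∧
      ∃ (n : ℕ) (m m' : Fin n → H →L[ℂ] H), (∀ j, m j ∈ M) ∧ (∀ j, m' j ∈ M.commutant) ∧
        ∑ j, star (m j) * m j = 1 ∧ (∀ v, ∑ j, ‖m' j v‖ ^ 2 ≤ ‖v‖ ^ 2) ∧
        ∑ j, ‖m j η - m' j η‖ ^ 2 ≤ ε' ∧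
        (∑ j, ⟪F.π (m j) η', Z (F.π (m j) η')⟫_ℂ).re ≤ (⟪η', b η'⟫_ℂ).re + ε'

/-- Task B1: simultaneous approximation in a column norm and a weighted row norm. -/
def HC : Prop :=
  ∀ B : ℝ, 0 < B → ∃ B' : ℝ, 0 < B' ∧ ∀ θ : ℝ, 0 < θ → ∃ δ : ℝ, 0 < δ ∧
    ∀ (H : Type u) [NormedAddCommGroup H] [InnerProductSpace ℂ H] [CompleteSpace H]
      (M N : VonNeumannAlgebra H),
      Near δ (N.commutant : Set (H →L[ℂ] H)) M.commutant →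
      ∀ (I : Type) [Fintype I] (x : I → H →L[ℂ] H) (μ : I → ℝ), (∀ i, x i ∈ M) → (∀ i, 0 < μ i) →
      (∀ v, ∑ i, ‖x i v‖ ^ 2 ≤ B * ‖v‖ ^ 2) →
      (∀ v, ∑ i, μ i * ‖star (x i) v‖ ^ 2 ≤ B * ‖v‖ ^ 2) →
      ∀ η : H, ∃ y : I → H →L[ℂ] H, (∀ i, y i ∈ N) ∧
        ∑ i, ‖x i η - y i η‖ ^ 2 ≤ θ * ‖η‖ ^ 2 ∧ ∑ i, μ i * ‖star (y i) η‖ ^ 2 ≤ B' * ‖η‖ ^ 2

/-- Task B2: the two modular groups agree for a short time on state preserving families. -/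
def Band : Prop :=
  ∃ t₀ δ₀ κ : ℝ, 0 < t₀ ∧ 0 < δ₀ ∧ 0 < κ ∧
    ∀ (H : Type u) [NormedAddCommGroup H] [InnerProductSpace ℂ H] [CompleteSpace H]
      (M N : VonNeumannAlgebra H) (ξ : H) (SM : MD M ξ) (SN : MD N ξ), Close δ₀ M N →
      ∀ q : H →L[ℂ] H, IsStarProjection q → q ∈ M → q ∈ M.commutant → q ∈ N → q ∈ N.commutant →
      ∀ (n : ℕ) (m m' : Fin n → H →L[ℂ] H), (∀ j, m j ∈ M) → (∀ j, m' j ∈ M.commutant) →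
      (∀ v, ∑ j, ‖m j v‖ ^ 2 ≤ ‖v‖ ^ 2) → (∀ v, ∑ j, ‖m' j v‖ ^ 2 ≤ ‖v‖ ^ 2) →
      ∑ j, ‖m j (q ξ) - m' j (q ξ)‖ ^ 2 ≤ δ₀ * ‖q ξ‖ ^ 2 →
      ∀ t : ℝ, |t| ≤ t₀ →
        ∫ s in (-Real.pi)..Real.pi, Real.exp (-(2 * κ * s ^ 2)) *
          ∑ j, ‖SN.D.wave t (SM.D.wave s (m j (q ξ))) - SM.D.wave t (SM.D.wave s (m j (q ξ)))‖ ^ 2 ≤
        (1 / 2) * (∫ s in (-Real.pi)..Real.pi, Real.exp (-(2 * κ * s ^ 2))) * ‖q ξ‖ ^ 2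

/-- Task C: the modular groups agree modulo inner automorphisms. -/
def STAR : Prop :=
  ∃ C δ₀ : ℝ, 0 < C ∧ 0 < δ₀ ∧
    ∀ (H : Type u) [NormedAddCommGroup H] [InnerProductSpace ℂ H] [CompleteSpace H]
      (M N : VonNeumannAlgebra H) (ξ : H) (SM : MD M ξ) (SN : MD N ξ), Std M ξ → SameZ M N →
      ∀ δ : ℝ, 0 ≤ δ → δ ≤ δ₀ → Close δ M N → ∀ t : ℝ, ∃ w ∈ M, ∃ w' ∈ M.commutant,
        w ∈ unitary (H →L[ℂ] H) ∧ w' ∈ unitary (H →L[ℂ] H) ∧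
        ‖SN.D.wave t - w * SM.D.wave t * w'‖ ≤ C * δ

/-- Task K1: an invariant mean with values in operators. -/
def OpMean (G : Type*) [AddCommGroup G] (K : Type*) [NormedAddCommGroup K] [InnerProductSpace ℂ K]
    [CompleteSpace K] : Prop :=
  ∃ m : (G → K →L[ℂ] K) → K →L[ℂ] K,
    (∀ F c, (∀ g, ‖F g‖ ≤ c) → ‖m F‖ ≤ c) ∧
    (∀ F F' c c', (∀ g, ‖F g‖ ≤ c) → (∀ g, ‖F' g‖ ≤ c') → m (F + F') = m F + m F') ∧
    (∀ F c, (∀ g, ‖F g‖ ≤ c) → ∀ a b, m (fun g => a * F g * b) = a * m F * b) ∧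
    (∀ F c, (∀ g, ‖F g‖ ≤ c) → m (fun g => star (F g)) = star (m F)) ∧
    (∀ F c, (∀ g, ‖F g‖ ≤ c) → ∀ h, m (fun g => F (h + g)) = m F) ∧
    ∀ a, m (fun _ => a) = a

/-- Task K2: approximate actions of the discrete group `ℝ` can be corrected. -/
def Kaz : Prop :=
  ∃ C ε₀ : ℝ, 0 < C ∧ 0 < ε₀ ∧
    ∀ (H : Type u) [NormedAddCommGroup H] [InnerProductSpace ℂ H] [CompleteSpace H]
      (M : VonNeumannAlgebra H) (Y : ℝ → H →L[ℂ] H) (ε : ℝ), 0 ≤ ε → ε ≤ ε₀ →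
      (∀ g, Y g ∈ unitary (H →L[ℂ] H)) → (∀ g, ∀ x ∈ M, Y g * x * star (Y g) ∈ M) →
      (∀ g, ∀ x ∈ M, star (Y g) * x * Y g ∈ M) →
      (∀ g h, Y g * Y h * star (Y (g + h)) ∈ M) →
      (∀ g h, ∀ x ∈ M, ‖Y g * Y h * star (Y (g + h)) * x - x * (Y g * Y h * star (Y (g + h)))‖ ≤
        ε * ‖x‖) →
      (∀ g, ∀ z ∈ M, z ∈ M.commutant → Y g * z = z * Y g) →
      ∃ Y' : ℝ → H →L[ℂ] H, (∀ g, Y' g ∈ unitary (H →L[ℂ] H)) ∧ (∀ g, Y' g * star (Y g) ∈ M) ∧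
        (∀ g, ‖Y' g - Y g‖ ≤ C * ε) ∧ ∀ g h, Y' g * Y' h * star (Y' (g + h)) ∈ M.commutant

/-- Task K3: matching the centres. -/
def Cen : Prop :=
  ∃ C δ₀ : ℝ, 0 < C ∧ 0 < δ₀ ∧
    ∀ (H : Type u) [NormedAddCommGroup H] [InnerProductSpace ℂ H] [CompleteSpace H]
      (M N : VonNeumannAlgebra H) (δ : ℝ), 0 ≤ δ → δ ≤ δ₀ → Close δ M N →
      ∃ u ∈ unitary (H →L[ℂ] H), ‖u - 1‖ ≤ C * δ ∧ ∀ q : H →L[ℂ] H, IsStarProjection q →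
        ((q ∈ M ∧ q ∈ M.commutant) ↔ (u * q * star u ∈ N ∧ u * q * star u ∈ N.commutant))

/-- Task P: reduction to the finite corner of the core. -/
def Core : Prop :=
  ∀ c : ℝ, 0 < c → ∃ ε : ℝ, 0 < ε ∧
    ∀ (H : Type u) [NormedAddCommGroup H] [InnerProductSpace ℂ H] [CompleteSpace H]
      [TopologicalSpace.SeparableSpace H] (M N : VonNeumannAlgebra H) (ξ : H) (S : MD N ξ),
      Std N ξ → Close ε M N → ∀ Y : ℝ → H →L[ℂ] H, (∀ g, Y g ∈ unitary (H →L[ℂ] H)) →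
      (∀ g, ∀ y ∈ M.commutant, Y g * y * star (Y g) ∈ M.commutant) →
      (∀ g, ∀ y ∈ M.commutant, star (Y g) * y * Y g ∈ M.commutant) →
      (∀ g h, Y g * Y h * star (Y (g + h)) ∈ M.commutant) →
      (∀ g, ∃ w' ∈ M.commutant, w' ∈ unitary (H →L[ℂ] H) ∧ ‖S.D.wave g - Y g * w'‖ ≤ ε) →
      Lift c (N : Set (H →L[ℂ] H)) M

end Crest.Agent.H3.KK
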