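import Crest.Agent.H3.KK.TT3

/-! The pair `(B, A)` of a cyclic and separating vector and the key operator identity. -/

set_option autoImplicit false
open scoped InnerProductSpace Topology ComplexConjugate
open Crest.OpAlg Filter

namespace Crest.Agent.H3.KK

variable {H : Type*} [NormedAddCommGroup H] [InnerProductSpace ℂ H] [CompleteSpace H]

omit [CompleteSpace H] in
theorem smul_split (c : ℂ) (w : H) : c • w = c.re • w + c.im • (Complex.I • w) := by
  conv_lhs => rw [← Complex.re_add_im c]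
  rw [add_smul, mul_smul]; rfl

omit [CompleteSpace H] in
theorem re_I_left (v w : H) : (⟪Complex.I • v, w⟫_ℂ).re = (⟪v, -Complex.I • w⟫_ℂ).re := by
  rw [inner_smul_left, inner_smul_right, Complex.conj_I]

omit [CompleteSpace H] in
theorem re_comm (v w : H) : (⟪v, w⟫_ℂ).re = (⟪w, v⟫_ℂ).re := by
  rw [← inner_conj_symm, Complex.conj_re]

omit [CompleteSpace H] in
theorem two_proj {E F : H → H} (hE : ∀ v, (⟪v, E v⟫_ℂ).re = ‖E v‖ ^ 2)
    (hF : ∀ v, (⟪v, F v⟫_ℂ).re = ‖F v‖ ^ 2) {v : H} (h : E v + F v = 0) : E v = 0 ∧ F v = 0 := by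
  have h1 : ‖E v‖ ^ 2 + ‖F v‖ ^ 2 = 0 := by
    rw [← hE, ← hF, ← Complex.add_re, ← inner_add_right, h, inner_zero_right, Complex.zero_re]
  constructor
  · exact norm_eq_zero.1 (pow_eq_zero_iff two_ne_zero |>.1
      (by nlinarith [sq_nonneg ‖E v‖, sq_nonneg ‖F v‖]))
  · exact norm_eq_zero.1 (pow_eq_zero_iff two_ne_zero |>.1
      (by nlinarith [sq_nonneg ‖E v‖, sq_nonneg ‖F v‖]))

theorem exists_pair {M : VonNeumannAlgebra H} {ξ : H} (h : Std M ξ) :
    ∃ (B : H →L[ℂ] H) (A : H →SL[starRingEnd ℂ] H), Pair B A ∧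
      (∀ u ∈ M, A (u ξ) = (1 - B) (star u ξ)) ∧
      (∀ u ∈ M.commutant, A (u ξ) = (1 + B) (star u ξ)) ∧
      ∀ x' ∈ M.commutant, IsSelfAdjoint x' → ∀ l : ℂ, 0 < l.re → ∃ x ∈ M, ∀ v,
        A (x' (A v)) = l • (1 - B) (x ((1 + B) v)) + conj l • (1 + B) (x ((1 - B) v)) := by
  obtain ⟨-, hsep, hcyc⟩ := h
  have hsep' : ∀ a ∈ M.commutant.commutant, a ξ = 0 → a = 0 := by
    rwa [M.commutant_commutant]
  obtain ⟨P, hP, hPP, hPa, hd⟩ := exists_P M ξ
  have nsq : ∀ v : H, (⟪v, v⟫_ℂ).re = ‖v‖ ^ 2 := fun v => inner_self_eq_norm_sq (𝕜 := ℂ) _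
  have hP0 : ∀ v, (∀ a ∈ M, IsSelfAdjoint a → (⟪a ξ, v⟫_ℂ).re = 0) → P v = 0 := by
    intro v hv
    have h1 : ‖P v‖ ^ 2 ≤ 0 := le_of_forall_pos_le_add fun ε hε => by
      obtain ⟨a, ha, ha', hlt⟩ := hd v (ε / (‖v‖ + 1)) (by positivity)
      have h2 : ‖P v‖ ^ 2 = (⟪P v - a ξ, v⟫_ℂ).re := by
        rw [inner_sub_left, Complex.sub_re, hv a ha ha', sub_zero, ← nsq, ← hP, hPP]
      rw [h2, zero_add]
      calc _ ≤ ‖P v - a ξ‖ * ‖v‖ := (Complex.re_le_norm _).trans (norm_inner_le_norm _ _)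
        _ ≤ ε / (‖v‖ + 1) * (‖v‖ + 1) := by gcongr; linarith
        _ = ε := by field_simp
    exact norm_eq_zero.1 (pow_eq_zero_iff two_ne_zero |>.1 (le_antisymm h1 (sq_nonneg _)))
  obtain ⟨Q, hQ⟩ : ∃ Q : H →L[ℝ] H, ∀ v, Q v = Complex.I • P (-Complex.I • v) :=
    ⟨((Complex.I • (1 : H →L[ℂ] H)).restrictScalars ℝ) ∘L P ∘L
      ((-Complex.I • (1 : H →L[ℂ] H)).restrictScalars ℝ), fun v => rfl⟩
  have hQI : ∀ v, Q (Complex.I • v) = Complex.I • P v := fun v => by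
    rw [hQ, smul_smul]; simp
  have hPI : ∀ v, P (Complex.I • v) = Complex.I • Q v := fun v => by
    rw [hQ, smul_smul, neg_smul, map_neg]; simp
  have hQs : ∀ v w, (⟪Q v, w⟫_ℂ).re = (⟪v, Q w⟫_ℂ).re := fun v w => by
    rw [hQ, hQ, re_I_left, hP, re_comm v, re_I_left, re_comm (P _)]
  have hQQ : ∀ v, Q (Q v) = Q v := fun v => by
    conv_lhs => rw [hQ v, hQI, hPP, ← hQ]
  obtain ⟨B, hB⟩ : ∃ B : H →L[ℂ] H, ∀ v, B v = P v + Q v - v :=
    ⟨⟨⟨⟨fun v => P v + Q v - v, fun v w => by simp only [map_add]; abel⟩, fun c v => by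
      simp only [RingHom.id_apply]
      rw [smul_split c v, smul_split c (P v + Q v - v)]
      simp only [map_add, map_smul, hQI, hPI, smul_add, smul_sub]
      abel⟩, by fun_prop⟩, fun _ => rfl⟩
  obtain ⟨A, hA⟩ : ∃ A : H →SL[starRingEnd ℂ] H, ∀ v, A v = P v - Q v :=
    ⟨⟨⟨⟨fun v => P v - Q v, fun v w => by simp only [map_add]; abel⟩, fun c v => by
      rw [smul_split c v, smul_split (conj c) (P v - Q v)]
      simp only [map_add, map_smul, hQI, hPI, smul_sub, Complex.conj_re, Complex.conj_im, neg_smul]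
      abel⟩, by fun_prop⟩, fun _ => rfl⟩
  have hQ' : ∀ a ∈ M.commutant, IsSelfAdjoint a → Q (a ξ) = 0 := fun a ha ha' => by
    rw [hQ, hP0 _ fun b hb hb' => ?_, smul_zero]
    have h1 : ⟪b ξ, a ξ⟫_ℂ = ⟪a ξ, b ξ⟫_ℂ := by
      rw [← H3Mod.inner_star_right b, hb'.star_eq, ← H3Mod.comm_of_mem hb ha,
        ← H3Mod.inner_star_left a, ha'.star_eq]
    have h2 : (⟪b ξ, a ξ⟫_ℂ).im = 0 := by
      rw [← Complex.conj_eq_iff_im, inner_conj_symm, h1]
    rw [inner_smul_right]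
    simp [h2]
  have hBre : ∀ v w, (⟪B v, w⟫_ℂ).re = (⟪v, B w⟫_ℂ).re := fun v w => by
    simp only [hB, inner_sub_left, inner_add_left, inner_sub_right, inner_add_right,
      Complex.sub_re, Complex.add_re, hP, hQs]
  have hAre : ∀ v w, (⟪A v, w⟫_ℂ).re = (⟪A w, v⟫_ℂ).re := fun v w => by
    rw [re_comm (A w)]
    simp only [hA, inner_sub_left, inner_sub_right, Complex.sub_re, hP, hQs]
  have hPn : ∀ v, (⟪v, P v⟫_ℂ).re = ‖P v‖ ^ 2 := fun v => by rw [← nsq, hP, hPP]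
  have hQn : ∀ v, (⟪v, Q v⟫_ℂ).re = ‖Q v‖ ^ 2 := fun v => by rw [← nsq, hQs, hQQ]
  have hc : ∀ E : H →L[ℝ] H, (∀ v, (⟪v, E v⟫_ℂ).re = ‖E v‖ ^ 2) →
      ∀ v, (⟪v, v - E v⟫_ℂ).re = ‖v - E v‖ ^ 2 := fun E hE v => by
    rw [← nsq, inner_sub_left, Complex.sub_re, inner_sub_right (E v), Complex.sub_re, re_comm (E v),
      nsq (E v), hE]
    ring
  have hpair : Pair B A := by
    refine ⟨?_, fun v w => ?_, fun v => ?_, fun v => ?_, fun v hv => ?_, fun v hv => ?_⟩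
    · rw [ContinuousLinearMap.isSelfAdjoint_iff_isSymmetric]
      intro v w
      change ⟪B v, w⟫_ℂ = ⟪v, B w⟫_ℂ
      refine Complex.ext (hBre v w) ?_
      have := hBre v (Complex.I • w)
      rw [map_smul, inner_smul_right, inner_smul_right] at this
      simpa using this
    · refine Complex.ext (hAre v w) ?_
      have := hAre v (Complex.I • w)
      rw [map_smulₛₗ, inner_smul_right, inner_smul_left] at this
      simpa using this
    · simp only [hA, hB, map_sub, map_add, hPP, hQQ]; abel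
    · simp only [hA, hB, map_sub, map_add, hPP, hQQ]; abel
    · obtain ⟨h1, h2⟩ := two_proj (E := fun v => v - P v) (F := fun v => v - Q v) (hc P hPn)
        (hc Q hQn) (v := v) (by
          rw [hB] at hv
          calc _ = v - (P v + Q v - v) := by abel
            _ = 0 := by rw [hv, sub_self])
      refine perp_zero hsep' fun a ha ha' => Complex.ext ?_ ?_
      · rw [sub_eq_zero.1 h2, ← hQs, hQ' a ha ha']; simp
      · have : (⟪Complex.I • a ξ, v⟫_ℂ).re = 0 := by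
          rw [sub_eq_zero.1 h1, ← hP, hPI, hQ' a ha ha']; simp
        rw [inner_smul_left] at this
        simpa using this
    · obtain ⟨h1, h2⟩ := two_proj hPn hQn (v := v) (by
        rw [hB] at hv
        calc _ = (P v + Q v - v) + v := by abel
          _ = 0 := by rw [hv, neg_add_cancel])
      refine perp_zero hcyc fun a ha ha' => Complex.ext ?_ ?_
      · rw [← hPa a ha ha', hP, h1]; simp
      · have : (⟪Complex.I • a ξ, v⟫_ℂ).re = 0 := by
          rw [← hPa a ha ha', ← hQI, hQs, h2]; simp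
        rw [inner_smul_left] at this
        simpa using this
  have hM : ∀ u ∈ M, A (u ξ) = (1 - B) (star u ξ) := fun u hu => by
    have h1 : ∀ a ∈ M, IsSelfAdjoint a → A (a ξ) = (1 - B) (a ξ) := fun a ha ha' => by
      rw [ContinuousLinearMap.sub_apply, hA, hB, hPa a ha ha']
      simp
    obtain ⟨a, ha, b, hb, ha', hb', e1, e2⟩ := exists_cart hu
    rw [e2]
    conv_lhs => rw [e1]
    rw [ContinuousLinearMap.add_apply, ContinuousLinearMap.sub_apply a,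
      ContinuousLinearMap.smul_apply, map_add, map_smulₛₗ, h1 a ha ha', h1 b hb hb', map_sub,
      map_smul, Complex.conj_I, neg_smul, ← sub_eq_add_neg]
  have hM1 : ∀ a ∈ M.commutant, IsSelfAdjoint a → A (a ξ) = (1 + B) (a ξ) := fun a ha ha' => by
    rw [ContinuousLinearMap.add_apply, hA, hB, hQ' a ha ha']
    simp
  have hM' : ∀ u ∈ M.commutant, A (u ξ) = (1 + B) (star u ξ) := fun u hu => by
    obtain ⟨a, ha, b, hb, ha', hb', e1, e2⟩ := exists_cart hu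
    rw [e2]
    conv_lhs => rw [e1]
    rw [ContinuousLinearMap.add_apply, ContinuousLinearMap.sub_apply a,
      ContinuousLinearMap.smul_apply, map_add, map_smulₛₗ, hM1 a ha ha', hM1 b hb hb', map_sub,
      map_smul, Complex.conj_I, neg_smul, ← sub_eq_add_neg]
  refine ⟨B, A, hpair, hM, hM', fun x' hx' hxs l hl => ?_⟩
  have hrn : ∀ a' ∈ M.commutant, IsSelfAdjoint a' → ∃ a ∈ M, IsSelfAdjoint a ∧ A (a' ξ) = a ξ := by
    intro a' ha' has
    obtain ⟨a, ha, hs, e⟩ := exists_rn hP hd ha' (μ := 1) (by simp)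
    exact ⟨a, ha, hs, by rw [hA, hQ' a' ha' has, sub_zero, ← e, one_smul, hPa a ha hs]⟩
  obtain ⟨x, hx, hs, e⟩ := exists_rn hP hd hx' (μ := 2 * conj l) (by simpa using hl)
  refine ⟨x, hx, ?_⟩
  have f1 : ∀ y ∈ M, IsSelfAdjoint y →
      ⟪y ξ, x' ξ⟫_ℂ = conj l * ⟪y ξ, x ξ⟫_ℂ + l * ⟪x ξ, y ξ⟫_ℂ := fun y hy hys => by
    have h1 : ⟪y ξ, x' ξ⟫_ℂ = ⟪x' ξ, y ξ⟫_ℂ := by
      rw [← H3Mod.inner_star_right y, hys.star_eq, ← H3Mod.comm_of_mem hy hx',
        ← H3Mod.inner_star_left x', hxs.star_eq]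
    have h2 : (⟪y ξ, x' ξ⟫_ℂ).im = 0 := by
      rw [← Complex.conj_eq_iff_im, inner_conj_symm, h1]
    have h3 : (⟪y ξ, x' ξ⟫_ℂ).re = (2 * conj l * ⟪y ξ, x ξ⟫_ℂ).re := by
      rw [← inner_smul_right]
      conv_lhs => rw [← hPa y hy hys, hP, ← e, ← hP, hPa y hy hys]
    rw [← inner_conj_symm (x ξ)]
    generalize ⟪y ξ, x ξ⟫_ℂ = z at h3 ⊢
    refine Complex.ext ?_ ?_
    · rw [h3]; simp; ring
    · rw [h2]; simp; ring
  have f2 : ∀ y ∈ M, ⟪y ξ, x' ξ⟫_ℂ = conj l * ⟪y ξ, x ξ⟫_ℂ + l * ⟪x ξ, star y ξ⟫_ℂ := by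
    intro y hy
    obtain ⟨a, ha, b, hb, ha', hb', e1, e2⟩ := exists_cart hy
    rw [e2, e1]
    simp only [ContinuousLinearMap.add_apply, ContinuousLinearMap.sub_apply,
      ContinuousLinearMap.smul_apply, inner_add_left, inner_smul_left, inner_sub_right,
      inner_smul_right, f1 a ha ha', f1 b hb hb', Complex.conj_I]
    ring
  have s1 : star (1 - B) = 1 - B := by rw [star_sub, star_one, hpair.sa.star_eq]
  have s2 : star (1 + B) = 1 + B := by rw [star_add, star_one, hpair.sa.star_eq]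
  have key : (A.comp (x'.comp A) : H →L[ℂ] H) =
      l • ((1 - B) * x * (1 + B)) + conj l • ((1 + B) * x * (1 - B)) := by
    refine op_ext hsep' fun b' hb' hbs => sub_eq_zero.1 (perp_zero hsep' fun a' ha' has => ?_)
    obtain ⟨a, ha, ha2, ea⟩ := hrn a' ha' has
    obtain ⟨b, hb, hb2, eb⟩ := hrn b' hb' hbs
    have g := f2 (b * a) (mul_mem hb ha)
    rw [star_mul, ha2.star_eq, hb2.star_eq] at g
    have g1 : ⟪(b * a) ξ, x' ξ⟫_ℂ = ⟪A (x' (A (b' ξ))), a' ξ⟫_ℂ := by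
      rw [hpair.sym, ea, eb, H3Mod.comm_of_mem hb hx', ← H3Mod.inner_star_left b, hb2.star_eq]; rfl
    have g2 : ⟪(b * a) ξ, x ξ⟫_ℂ = ⟪(1 - B) (x ((1 + B) (b' ξ))), a' ξ⟫_ℂ := by
      have := hM (b * x) (mul_mem hb hx)
      rw [star_mul, hs.star_eq, hb2.star_eq] at this
      rw [← hM1 b' hb' hbs, eb]
      change _ = ⟪(1 - B) ((x * b) ξ), _⟫_ℂ
      rw [← this, hpair.sym, ea]
      change ⟪b (a ξ), x ξ⟫_ℂ = ⟪a ξ, b (x ξ)⟫_ℂ
      rw [← H3Mod.inner_star_left b, hb2.star_eq]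
    have g3 : ⟪x ξ, (a * b) ξ⟫_ℂ = ⟪(1 + B) (x ((1 - B) (b' ξ))), a' ξ⟫_ℂ := by
      have := hM (a * x) (mul_mem ha hx)
      rw [star_mul, hs.star_eq, ha2.star_eq] at this
      rw [← H3Mod.inner_star_right (1 + B), s2, ← H3Mod.inner_star_right x ((1 - B) _), hs.star_eq,
        ← H3Mod.inner_star_right (1 - B), s1, ← hM1 a' ha' has, ea]
      change _ = ⟪_, (1 - B) ((x * a) ξ)⟫_ℂ
      rw [← this, ← inner_conj_symm (b' ξ), hpair.sym, eb, inner_conj_symm]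
      change ⟪x ξ, a (b ξ)⟫_ℂ = ⟪a (x ξ), b ξ⟫_ℂ
      rw [← H3Mod.inner_star_left a, ha2.star_eq]
    rw [g1, g2, g3] at g
    rw [inner_eq_zero_symm, inner_sub_left, sub_eq_zero]
    refine g.trans ?_
    rw [ContinuousLinearMap.add_apply (l • _), ContinuousLinearMap.smul_apply,
      ContinuousLinearMap.smul_apply, inner_add_left, inner_smul_left, inner_smul_left,
      Complex.conj_conj]
    rfl
  intro v
  exact congrArg (fun a : H →L[ℂ] H => a v) key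

end Crest.Agent.H3.KK
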