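import Crest.Agent.H3.KK.TT2
import Crest.Agent.H3.KK.TT4

/-! The Tomita–Takesaki theorem (after Rieffel and van Daele). -/

set_option autoImplicit false
open scoped InnerProductSpace Topology BoundedContinuousFunction ComplexConjugate
open Crest.OpAlg Filter MeasureTheory

namespace Crest.Agent.H3.KK

variable {H : Type*} [NormedAddCommGroup H] [InnerProductSpace ℂ H] [CompleteSpace H]

theorem exists_entire (g : ℝ →ᵇ ℂ) : ∃ e : ℂ → ℝ →ᵇ ℂ, Differentiable ℂ e ∧
    ∀ z u, e z u = Complex.exp (z * g u) := by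
  refine ⟨fun z => NormedSpace.exp (z • g), fun z => (hasDerivAt_exp_smul_const g z).differentiableAt,
    fun z u => ?_⟩
  let ev : (ℝ →ᵇ ℂ) →+* ℂ :=
    { toFun := fun f => f u
      map_one' := rfl
      map_mul' := fun _ _ => rfl
      map_zero' := rfl
      map_add' := fun _ _ => rfl }
  have := NormedSpace.map_exp ev (continuous_eval_const u) (z • g)
  rw [Complex.exp_eq_exp_ℂ]
  exact this

theorem exp_tau (u : ℝ) : ((Real.exp (u / 2) : ℝ) : ℂ) * tau u = 1 - bet u := by
  have h : Real.exp u = Real.exp (u / 2) * Real.exp (u / 2) := by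
    rw [← Real.exp_add]; congr 1; ring
  rw [tau_apply, bet_apply, ← Complex.ofReal_mul, ← Complex.ofReal_one, ← Complex.ofReal_sub]
  congr 1
  have : 0 < 1 + Real.exp u := by positivity
  field_simp
  rw [h]; ring

theorem exp_bet (u : ℝ) : ((Real.exp (u / 2) : ℝ) : ℂ) * (1 + bet u) = tau u := by
  rw [tau_apply, bet_apply, ← Complex.ofReal_one, ← Complex.ofReal_add, ← Complex.ofReal_mul]
  congr 1
  have : 0 < 1 + Real.exp u := by positivity
  field_simp
  ring

theorem star_tau : star tau = tau := by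
  ext u
  change conj (tau u) = _
  rw [tau_apply, Complex.conj_ofReal]

theorem continuous_flow (D : LineCalculus H) (a : H →L[ℂ] H) (v : H) :
    Continuous fun t : ℝ => D.wave t (a (D.wave (-t) v)) := by
  have h1 : Continuous fun t : ℝ => a (D.wave (-t) v) :=
    a.continuous.comp ((H3Mod.continuous_wave D v).comp continuous_neg)
  rw [continuous_iff_continuousAt]
  intro t₀
  have h2 : Tendsto (fun t => D.wave t (a (D.wave (-t₀) v))) (𝓝 t₀)
      (𝓝 (D.wave t₀ (a (D.wave (-t₀) v)))) := (H3Mod.continuous_wave D _).continuousAt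
  have h3 : Tendsto (fun t => D.wave t (a (D.wave (-t) v) - a (D.wave (-t₀) v))) (𝓝 t₀)
      (𝓝 0) := by
    rw [tendsto_zero_iff_norm_tendsto_zero]
    simp only [H3Mod.norm_wave_apply]
    rw [← tendsto_zero_iff_norm_tendsto_zero]
    exact tendsto_sub_nhds_zero_iff.2 h1.continuousAt
  have h4 := h3.add h2
  simp only [map_sub, sub_add_cancel, zero_add] at h4
  exact h4

theorem norm_flow_le (D : LineCalculus H) (a : H →L[ℂ] H) (v : H) (t : ℝ) :
    ‖D.wave t (a (D.wave (-t) v))‖ ≤ ‖a‖ * ‖v‖ := by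
  rw [H3Mod.norm_wave_apply]
  exact (a.le_opNorm _).trans (by rw [H3Mod.norm_wave_apply])

theorem exists_smear (D : LineCalculus H) {G : ℝ → ℂ} (hG : Integrable G) (a : H →L[ℂ] H) :
    ∃ W : H →L[ℂ] H, ∀ u v, ⟪u, W v⟫_ℂ = ∫ t, G t * ⟪u, D.wave t (a (D.wave (-t) v))⟫_ℂ := by
  have hi : ∀ v, Integrable fun t => G t • D.wave t (a (D.wave (-t) v)) := fun v =>
    Integrable.smul_of_top_left hG (memLp_top_of_bound
      (continuous_flow D a v).aestronglyMeasurable _ (Eventually.of_forall (norm_flow_le D a v)))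
  let L : H →ₗ[ℂ] H :=
    { toFun := fun v => ∫ t, G t • D.wave t (a (D.wave (-t) v))
      map_add' := fun v w => by
        simp only [map_add, smul_add]
        exact integral_add (hi v) (hi w)
      map_smul' := fun z v => by
        simp only [map_smul, RingHom.id_apply]
        rw [← integral_smul]
        congr 1; ext t
        rw [smul_comm] }
  have hL : ∀ v, ‖L v‖ ≤ ((∫ t, ‖G t‖) * ‖a‖) * ‖v‖ := by
    intro v
    refine (norm_integral_le_integral_norm _).trans ?_
    rw [mul_assoc, ← integral_mul_const]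
    refine integral_mono (hi v).norm (hG.norm.mul_const _) fun t => ?_
    simp only [norm_smul]
    gcongr
    exact norm_flow_le D a v t
  refine ⟨L.mkContinuous _ hL, fun u v => ?_⟩
  change ⟪u, ∫ t, G t • D.wave t (a (D.wave (-t) v))⟫_ℂ = _
  rw [← integral_inner (hi v)]
  simp only [inner_smul_right]

theorem flow_key (D : LineCalculus H) (hT : ∀ v, D.apply tau v = 0 → v = 0) {x y : H →L[ℂ] H}
    {θ : ℝ} (hθ : |θ| ≤ 1)
    (h : ∀ v, D.apply tau (y (D.apply tau v)) =
      Complex.exp (Complex.I * θ / 2) • D.apply (1 - bet) (x (D.apply (1 + bet) v)) +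
      Complex.exp (-(Complex.I * θ / 2)) • D.apply (1 + bet) (x (D.apply (1 - bet) v))) (u v : H) :
    ∫ t, (ker θ t : ℂ) * ⟪u, D.wave t (y (D.wave (-t) v))⟫_ℂ =
      ((2 * Real.cos (θ / 2) * ∫ t, ker θ t : ℝ) : ℂ) * ⟪u, x v⟫_ℂ := by
  set c : ℂ := ((2 * Real.cos (θ / 2) * ∫ t, ker θ t : ℝ) : ℂ) with hc
  obtain ⟨W, hW⟩ := exists_smear D (G := fun t => (ker θ t : ℂ)) (integrable_ker hθ).ofReal y
  have key : ∀ φ ψ : ℝ →ᵇ ℂ, HasCompactSupport (φ : ℝ → ℂ) → HasCompactSupport (ψ : ℝ → ℂ) →
      ∀ β, D.apply (tau * φ) ((W - c • x) (D.apply (tau * ψ) β)) = 0 := by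
    intro φ ψ hφ hψ β
    refine ext_inner_left ℂ fun α => ?_
    obtain ⟨n, hn⟩ := (hφ.isCompact.union hψ.isCompact).isBounded.subset_closedBall 0
    let g : ℝ →ᵇ ℂ := BoundedContinuousFunction.ofNormedAddCommGroup
      (fun u => ((max (-|n|) (min u |n|) : ℝ) : ℂ)) (by fun_prop) |n| fun u => by
        rw [Complex.norm_real, Real.norm_eq_abs, abs_le]
        exact ⟨le_max_left _ _, max_le (by linarith [abs_nonneg n]) (min_le_right _ _)⟩
    have hg : ∀ u, g u = ((max (-|n|) (min u |n|) : ℝ) : ℂ) := fun _ => rfl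
    have hgu : ∀ u, φ u ≠ 0 ∨ ψ u ≠ 0 → g u = u := fun u hu => by
      have h1 : u ∈ Metric.closedBall (0 : ℝ) n := hn (by
        rcases hu with hu | hu
        · exact Or.inl (subset_tsupport _ hu)
        · exact Or.inr (subset_tsupport _ hu))
      rw [mem_closedBall_zero_iff, Real.norm_eq_abs] at h1
      have h2 := abs_le.1 (h1.trans (le_abs_self n))
      rw [hg, min_eq_left h2.2, max_eq_right h2.1]
    obtain ⟨e, hed, he⟩ := exists_entire g
    have heb : ∀ z : ℂ, |z.re| ≤ 1 / 2 → ‖e z‖ ≤ Real.exp |n| := fun z hz =>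
      (BoundedContinuousFunction.norm_le (Real.exp_pos _).le).2 fun u => by
        rw [he, Complex.norm_exp, hg, Complex.re_mul_ofReal]
        refine Real.exp_le_exp.2 ((le_abs_self _).trans ?_)
        rw [abs_mul]
        have : |max (-|n|) (min u |n|)| ≤ |n| :=
          abs_le.2 ⟨le_max_left _ _, max_le (by linarith [abs_nonneg n]) (min_le_right _ _)⟩
        nlinarith [abs_nonneg (max (-|n|) (min u |n|)), abs_nonneg z.re]
    have Lm : ∀ χ : ℝ →ᵇ ℂ, (∀ u, χ u ≠ 0 → g u = u) → ∀ t : ℝ,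
        e (1 / 2 + t * Complex.I) * (tau * χ) = LineCalculus.character t * χ * (1 - bet) := by
      intro χ hχ t
      ext u
      change e _ u * (tau u * χ u) = LineCalculus.character t u * χ u * (1 - bet u)
      by_cases hu : χ u = 0
      · simp [hu]
      · rw [he, hχ u hu, ← exp_tau, H3Mod.character_apply, add_mul, Complex.exp_add]
        push_cast
        ring_nf
    have Lp : ∀ χ : ℝ →ᵇ ℂ, (∀ u, χ u ≠ 0 → g u = u) → ∀ t : ℝ,
        e (-(1 / 2) + t * Complex.I) * (tau * χ) = LineCalculus.character t * χ * (1 + bet) := by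
      intro χ hχ t
      ext u
      change e _ u * (tau u * χ u) = LineCalculus.character t u * χ u * (1 + bet u)
      by_cases hu : χ u = 0
      · simp [hu]
      · have h1 : Complex.exp (-(1 / 2) * u) * ((Real.exp (u / 2) : ℝ) : ℂ) = 1 := by
          push_cast
          rw [← Complex.exp_add]
          ring_nf
          exact Complex.exp_zero
        rw [he, hχ u hu, ← exp_bet, H3Mod.character_apply, add_mul, Complex.exp_add]
        calc _ = (Complex.exp (-(1 / 2) * u) * ((Real.exp (u / 2) : ℝ) : ℂ)) *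
            (Complex.exp (t * Complex.I * u) * χ u * (1 + bet u)) := by ring
          _ = _ := by rw [h1]; push_cast; ring_nf
    let L : (ℝ →ᵇ ℂ) →L[ℂ] (H →L[ℂ] H) :=
      LinearMap.mkContinuous
        { toFun := D.apply
          map_add' := map_add D.apply
          map_smul' := map_smul D.apply } 1 fun f => by simpa using H3Mod.calc_norm_le D f
    let F : ℂ → ℂ := fun z =>
      ⟪α, D.apply (e z * (tau * φ)) (x (D.apply (e (-z) * (tau * ψ)) β))⟫_ℂ
    have hF : Differentiable ℂ F := by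
      have d1 : Differentiable ℂ fun z => L (e z * (tau * φ)) :=
        L.differentiable.comp (hed.mul_const _)
      have d2 : Differentiable ℂ fun z => L (e (-z) * (tau * ψ)) :=
        L.differentiable.comp ((hed.comp differentiable_neg).mul_const _)
      exact (innerSL ℂ α).differentiable.comp
        (d1.clm_apply (x.differentiable.comp (d2.clm_apply (differentiable_const β))))
    have hb : ∀ z : ℂ, |z.re| ≤ 1 / 2 → ‖F z‖ ≤ ‖α‖ * (Real.exp |n| * ‖tau * φ‖ *
        (‖x‖ * (Real.exp |n| * ‖tau * ψ‖ * ‖β‖))) := fun z hz => by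
      refine (norm_inner_le_norm _ _).trans ?_
      gcongr
      refine (H3Mod.calc_apply_norm_le D _ _).trans ?_
      gcongr
      · exact (norm_mul_le _ _).trans (by gcongr; exact heb z hz)
      · refine (x.le_opNorm _).trans ?_
        gcongr
        refine (H3Mod.calc_apply_norm_le D _ _).trans ?_
        gcongr
        exact (norm_mul_le _ _).trans (by gcongr; exact heb _ (by simpa using hz))
    have hs := strip hF hb hθ
    have e0 : e 0 = 1 := by ext u; rw [he]; simp
    rw [inner_zero_right, ← H3Mod.inner_star_left, ContinuousLinearMap.sub_apply,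
      ContinuousLinearMap.smul_apply, inner_sub_right, inner_smul_right, hW, sub_eq_zero]
    simp only [H3Mod.inner_star_left]
    have hF0 : F 0 = ⟪α, D.apply (tau * φ) (x (D.apply (tau * ψ) β))⟫_ℂ := by
      simp only [F, neg_zero, e0, one_mul]
    rw [← hF0, ← hs]
    congr 1; ext t
    congr 1
    have q1 : -(1 / 2 + (t : ℂ) * Complex.I) = -(1 / 2) + ((-t : ℝ) : ℂ) * Complex.I := by
      push_cast; ring
    have q2 : -(-(1 / 2) + (t : ℂ) * Complex.I) = 1 / 2 + ((-t : ℝ) : ℂ) * Complex.I := by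
      push_cast; ring
    simp only [F]
    rw [q1, q2, Lm φ fun u hu => hgu u (Or.inl hu), Lm ψ fun u hu => hgu u (Or.inr hu),
      Lp φ fun u hu => hgu u (Or.inl hu), Lp ψ fun u hu => hgu u (Or.inr hu),
      ← inner_smul_right, ← inner_smul_right, ← inner_add_right]
    congr 1
    have a1 : ∀ w, D.apply (tau * φ) (D.wave t w) =
        D.apply (LineCalculus.character t * φ) (D.apply tau w) := fun w => by
      unfold LineCalculus.wave
      rw [← H3Mod.calc_mul_apply, ← H3Mod.calc_mul_apply]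
      congr 2; ring
    have a2 : D.wave (-t) (D.apply (tau * ψ) β) =
        D.apply tau (D.apply (LineCalculus.character (-t) * ψ) β) := by
      unfold LineCalculus.wave
      rw [← H3Mod.calc_mul_apply, ← H3Mod.calc_mul_apply]
      congr 2; ring
    rw [a1, a2, h, map_add, map_smul, map_smul]
    simp only [← H3Mod.calc_mul_apply, mul_comm (1 + bet), mul_comm (1 - bet)]
  have h1 : ∀ ψ : ℝ →ᵇ ℂ, HasCompactSupport (ψ : ℝ → ℂ) → (W - c • x) * D.apply (tau * ψ) = 0 := by
    intro ψ hψ
    ext β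
    exact hT _ (H3Mod.calc_eq_zero_of_cutoff D _ tau fun φ hφ => key φ ψ hφ hψ β)
  have h2 : star (W - c • x) = 0 := by
    ext w
    refine hT _ (H3Mod.calc_eq_zero_of_cutoff D _ tau fun φ hφ => ?_)
    have := congrArg star (h1 (star φ) (hφ.comp_left (g := star) (star_zero _)))
    rw [star_mul, ← map_star, star_mul', star_star, star_tau, star_zero] at this
    exact congrArg (fun a : H →L[ℂ] H => a w) this
  rw [← hW, sub_eq_zero.1 (star_eq_zero.1 h2), ContinuousLinearMap.smul_apply, inner_smul_right]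

omit [CompleteSpace H] in
theorem inner_conj (J : H ≃ₗᵢ⋆[ℂ] H) (x y : H) : ⟪J x, J y⟫_ℂ = ⟪y, x⟫_ℂ := by
  have hre : ∀ x y : H, (⟪J x, J y⟫_ℂ).re = (⟪x, y⟫_ℂ).re := by
    intro x y
    have h1 := re_inner_eq_norm_add_mul_self_sub_norm_sub_mul_self_div_four (𝕜 := ℂ) (J x) (J y)
    have h2 := re_inner_eq_norm_add_mul_self_sub_norm_sub_mul_self_div_four (𝕜 := ℂ) x y
    rw [← map_add, ← map_sub, J.norm_map, J.norm_map] at h1
    exact h1.trans h2.symm
  apply Complex.ext
  · rw [hre, ← inner_conj_symm y x, Complex.conj_re]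
  · have h := hre x (Complex.I • y)
    rw [LinearIsometryEquiv.map_smulₛₗ, inner_smul_right, inner_smul_right] at h
    rw [← inner_conj_symm y x, Complex.conj_im]
    simp at h
    linarith

/-- The operator `J a J`. -/
noncomputable def cj (J : H ≃ₗᵢ⋆[ℂ] H) (a : H →L[ℂ] H) : H →L[ℂ] H :=
  (J.toLinearIsometry.toContinuousLinearMap).comp (a.comp J.toLinearIsometry.toContinuousLinearMap)

omit [CompleteSpace H] in
theorem cj_apply (J : H ≃ₗᵢ⋆[ℂ] H) (a : H →L[ℂ] H) (v : H) : cj J a v = J (a (J v)) := rfl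

theorem tt {M : VonNeumannAlgebra H} {ξ : H} (h : Std M ξ) : Nonempty (MD M ξ) := by
  obtain ⟨B, A, hp, hM, hM', hkey⟩ := exists_pair h
  obtain ⟨-, hsep, hcyc⟩ := h
  have hsep' : ∀ a ∈ M.commutant.commutant, a ξ = 0 → a = 0 := by
    rwa [M.commutant_commutant]
  obtain ⟨D, J, hB, hJJ, hTJ, hJT, hT, hJf, h0⟩ := hp.exists_calc
  have hm : D.apply (1 - bet) = 1 - B := by rw [map_sub, map_one, hB]
  have hpl : D.apply (1 + bet) = 1 + B := by rw [map_add, map_one, hB]
  have hcen : ∀ q ∈ M, q ∈ M.commutant → B (q ξ) = 0 := fun q hq hq' => by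
    have h1 := (hM _ (star_mem hq)).symm.trans (hM' _ (star_mem hq'))
    rw [star_star, ContinuousLinearMap.sub_apply, ContinuousLinearMap.add_apply, sub_eq_add_neg,
      add_right_inj] at h1
    have h2 : (2 : ℂ) • B (q ξ) = 0 := by rw [two_smul]; nth_rewrite 1 [← h1]; simp
    simpa using h2
  have hw : ∀ v, B v = 0 → ∀ t, D.wave t v = v := fun v hv t => by
    unfold LineCalculus.wave
    rw [h0 v hv, H3Mod.character_apply]; simp
  have hBξ : B ξ = 0 := hcen 1 (one_mem _) (one_mem _)
  have hJξ : J ξ = ξ := by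
    have h1 : D.apply tau ξ = ξ := by rw [h0 ξ hBξ, tau_apply]; norm_num
    have h2 := hM 1 (one_mem _)
    rw [star_one] at h2
    change A ξ = ξ - B ξ at h2
    conv_lhs => rw [← h1]
    rw [hJT, h2, hBξ, sub_zero]
  have inj : ∀ v w, D.apply tau v = D.apply tau w → v = w := fun v w hvw =>
    sub_eq_zero.1 (hT _ (by rw [map_sub, hvw, sub_self]))
  have hJl : ∀ v w, ⟪J v, w⟫_ℂ = ⟪J w, v⟫_ℂ := fun v w => by
    rw [← inner_conj J w (J v), hJJ]
  -- the main step
  have main : ∀ x' ∈ M.commutant, ∀ t, D.wave t * cj J x' * D.wave (-t) ∈ M := by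
    have h1 : ∀ x' ∈ M.commutant, IsSelfAdjoint x' → ∀ t,
        D.wave t * cj J x' * D.wave (-t) ∈ M := by
      intro x' hx' hs t
      refine H3Mod.mem_of_comm M _ fun z hz => ?_
      ext v
      refine ext_inner_left ℂ fun u => ?_
      change ⟪u, z (D.wave t (cj J x' (D.wave (-t) v)))⟫_ℂ =
        ⟪u, D.wave t (cj J x' (D.wave (-t) (z v)))⟫_ℂ
      rw [← H3Mod.inner_star_left, ← sub_eq_zero]
      have hc : ∀ u v, Continuous fun t => ⟪u, D.wave t (cj J x' (D.wave (-t) v))⟫_ℂ :=
        fun u v => continuous_const.inner (continuous_flow D _ v)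
      have hb : ∀ u v t, ‖⟪u, D.wave t (cj J x' (D.wave (-t) v))⟫_ℂ‖ ≤ ‖u‖ * (‖cj J x'‖ * ‖v‖) :=
        fun u v t => (norm_inner_le_norm _ _).trans (by gcongr; exact norm_flow_le D _ v t)
      refine laplace ((hc (star z u) v).sub (hc u (z v)))
        (fun t => (norm_sub_le _ _).trans (add_le_add (hb _ _ t) (hb _ _ t))) (fun θ hθ => ?_) t
      have hl : 0 < (Complex.exp (Complex.I * θ / 2)).re := by
        have : Complex.I * θ / 2 = ((θ / 2 : ℝ) : ℂ) * Complex.I := by push_cast; ring
        rw [this, Complex.exp_ofReal_mul_I_re]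
        have := abs_le.1 hθ
        exact Real.cos_pos_of_mem_Ioo ⟨by linarith [Real.pi_gt_three], by linarith [Real.pi_gt_three]⟩
      obtain ⟨x, hx, e⟩ := hkey x' hx' hs _ hl
      have hf := flow_key D hT (x := x) (y := cj J x') hθ fun v => by
        rw [cj_apply, hTJ, hJT, e, hm, hpl, ← Complex.exp_conj]
        congr 3
        simp [neg_div, map_ofNat]
      simp only [Pi.sub_apply, mul_sub]
      rw [integral_sub (integrable_ker_mul hθ (hc _ _) (hb _ _))
        (integrable_ker_mul hθ (hc _ _) (hb _ _)), hf, hf, H3Mod.inner_star_left,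
        H3Mod.comm_of_mem hx hz, sub_self]
    intro x' hx' t
    obtain ⟨a, ha, b, hb, ha', hb', e, -⟩ := exists_cart hx'
    have : D.wave t * cj J x' * D.wave (-t) = D.wave t * cj J a * D.wave (-t) +
        (-Complex.I) • (D.wave t * cj J b * D.wave (-t)) := by
      ext v
      change D.wave t (J (x' (J _))) = D.wave t (J (a (J _))) + -Complex.I • D.wave t (J (b (J _)))
      rw [e, ContinuousLinearMap.add_apply, ContinuousLinearMap.smul_apply, map_add,
        LinearIsometryEquiv.map_smulₛₗ, map_add, map_smul, Complex.conj_I]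
    rw [this]
    exact add_mem (h1 a ha ha' t) (H3Mod.smul_mem' _ (h1 b hb hb' t))
  have jm' : ∀ x' ∈ M.commutant, cj J x' ∈ M := fun x' hx' => by
    simpa [H3Mod.wave_zero] using main x' hx' 0
  have hsB : ∀ v, J ((1 - B) v) = (1 + B) (J v) := fun v => by
    rw [← hm, hJf, ← hpl]
    congr 2
    ext u
    rw [sharp_apply]
    change conj (1 - bet (-u)) = 1 + bet u
    rw [bet_apply, bet_apply, map_sub, map_one, Complex.conj_ofReal, ← Complex.ofReal_one,
      ← Complex.ofReal_sub, ← Complex.ofReal_add, Real.exp_neg]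
    congr 1
    have := Real.exp_pos u
    field_simp
    ring
  have hreal : ∀ x ∈ M, IsSelfAdjoint x → ∀ u ∈ M, ⟪star u ξ, J (x ξ)⟫_ℂ = ⟪J (x ξ), u ξ⟫_ℂ := by
    intro x hx hs
    have h1 : A (J (x ξ)) = (1 + B) (J (x ξ)) := by
      rw [← hsB, ← hTJ, hJJ]
      conv_rhs => rw [← hs.star_eq, ← hM x hx, ← hJT, hJJ]
    have h2 : ∀ a ∈ M, IsSelfAdjoint a → ⟪a ξ, J (x ξ)⟫_ℂ = ⟪J (x ξ), a ξ⟫_ℂ := by
      intro a ha ha'
      have h3 := hp.sym (a ξ) (J (x ξ))
      rw [hM a ha, ha'.star_eq, h1, ContinuousLinearMap.sub_apply, ContinuousLinearMap.add_apply,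
        inner_sub_left, inner_add_left, ← H3Mod.inner_star_right B (J (x ξ)), hp.sa.star_eq,
        ← inner_conj_symm (J (x ξ)) (B _)] at h3
      change ⟪a ξ, J (x ξ)⟫_ℂ - _ = ⟪J (x ξ), a ξ⟫_ℂ + _ at h3
      rw [← inner_conj_symm (J (x ξ))] at h3 ⊢
      have h4 := congrArg Complex.im h3
      simp only [Complex.sub_im, Complex.add_im, Complex.conj_im] at h4
      exact (Complex.conj_eq_iff_im.2 (by linarith)).symm
    intro u hu
    obtain ⟨a, ha, b, hb, ha', hb', e1, e2⟩ := exists_cart hu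
    rw [e2, e1]
    simp only [ContinuousLinearMap.add_apply, ContinuousLinearMap.sub_apply,
      ContinuousLinearMap.smul_apply, inner_add_right, inner_smul_left, inner_sub_left,
      inner_smul_right, h2 a ha ha', h2 b hb hb', Complex.conj_I]
    ring
  have jm : ∀ y ∈ M, cj J y ∈ M.commutant := by
    intro y hy
    have h1 : ∀ x ∈ M, IsSelfAdjoint x → cj J y (x ξ) = x (J (y ξ)) := by
      intro x hx hs
      refine sub_eq_zero.1 (perp_zero hsep' fun b hb hb' => ?_)
      have h2 := hreal x hx hs (star y * cj J b) (mul_mem (star_mem hy) (jm' b hb))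
      have h3 : star (cj J b) = cj J b := by
        ext v
        refine ext_inner_left ℂ fun u => ?_
        rw [H3Mod.inner_star_right, cj_apply, cj_apply, hJl, ← H3Mod.inner_star_left, hb'.star_eq,
          ← inner_conj J, hJJ]
      rw [star_mul, star_star, h3] at h2
      change ⟪J (b (J (y ξ))), J (x ξ)⟫_ℂ = ⟪J (x ξ), star y (J (b (J ξ)))⟫_ℂ at h2
      rw [inner_conj, hJξ, H3Mod.inner_star_right, ← inner_conj J (J (b ξ)), hJJ] at h2
      rw [inner_sub_right, cj_apply, ← h2, ← H3Mod.inner_star_left b, hb'.star_eq,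
        H3Mod.comm_of_mem hx hb, ← H3Mod.inner_star_right x, hs.star_eq, sub_self]
    have h2 : ∀ x ∈ M, cj J y (x ξ) = x (J (y ξ)) := by
      intro x hx
      obtain ⟨a, ha, b, hb, ha', hb', rfl, -⟩ := exists_cart hx
      simp only [ContinuousLinearMap.add_apply, ContinuousLinearMap.smul_apply, map_add, map_smul,
        h1 a ha ha', h1 b hb hb']
    rw [VonNeumannAlgebra.mem_commutant_iff]
    intro x hx
    refine op_ext hcyc fun a ha _ => ?_
    change x (cj J y (a ξ)) = cj J y ((x * a) ξ)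
    rw [h2 a ha, h2 _ (mul_mem hx ha)]; rfl
  have flow : ∀ t, ∀ a ∈ M, D.wave t * a * D.wave (-t) ∈ M := fun t a ha => by
    have h1 := main _ (jm a ha) t
    have h2 : cj J (cj J a) = a := by ext v; simp only [cj_apply, hJJ]
    rwa [h2] at h1
  refine ⟨⟨D, J, hJJ, hJξ, hw ξ hBξ, flow, fun t a ha => ?_, fun a ha => ⟨_, jm a ha, fun _ => rfl⟩,
    fun a ha => ⟨_, jm' a ha, fun _ => rfl⟩, fun a ha f g hfg => inj _ _ ?_,
    fun a ha f g hfg => inj _ _ ?_, fun q hq hq' t => ?_⟩⟩
  · rw [VonNeumannAlgebra.mem_commutant_iff]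
    intro x hx
    ext v
    have h1 := H3Mod.comm_of_mem (flow (-t) x hx) ha (D.wave (-t) v)
    rw [neg_neg] at h1
    change a (D.wave (-t) (x (D.wave t (D.wave (-t) v)))) =
      D.wave (-t) (x (D.wave t (a (D.wave (-t) v)))) at h1
    change x (D.wave t (a (D.wave (-t) v))) = D.wave t (a (D.wave (-t) (x v)))
    rw [H3Mod.wave_wave_neg] at h1
    rw [h1, H3Mod.wave_wave_neg]
  · have h1 : f * (1 - bet) = tau * g := by
      ext u
      change f u * (1 - bet u) = tau u * g u
      rw [hfg, ← exp_tau]; ring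
    rw [← H3Mod.calc_mul_apply, mul_comm, H3Mod.calc_mul_apply, hTJ, hM _ (star_mem ha), star_star,
      ← hm, ← H3Mod.calc_mul_apply, ← H3Mod.calc_mul_apply, h1]
  · have h1 : g * (1 + bet) = tau * f := by
      ext u
      change g u * (1 + bet u) = tau u * f u
      rw [hfg, ← exp_bet]; ring
    symm
    rw [← H3Mod.calc_mul_apply, mul_comm, H3Mod.calc_mul_apply, hTJ, hM' _ (star_mem ha), star_star,
      ← hpl, ← H3Mod.calc_mul_apply, ← H3Mod.calc_mul_apply, h1]
  · have h1 := hsep _ (sub_mem (flow t q hq) hq) (by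
      change D.wave t (q (D.wave (-t) ξ)) - q ξ = 0
      rw [hw ξ hBξ, hw _ (hcen q hq hq'), sub_self])
    calc D.wave t * q = D.wave t * q * D.wave (-t) * D.wave t := by
          rw [mul_assoc, H3Mod.wave_neg_mul, mul_one]
      _ = _ := by rw [sub_eq_zero.1 h1]

universe u in
theorem tomita_takesaki : TT.{u} := fun _ _ _ _ _ _ h => tt h

end Crest.Agent.H3.KK
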