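import Crest.Agent.H3.KK.Defs
import Crest.Agent.H3Mod.Datum

/-! The functional calculus of the modular operator of a pair `(B, A)`. -/

set_option autoImplicit false
open scoped InnerProductSpace Topology BoundedContinuousFunction ComplexConjugate
open Crest.OpAlg Filter

namespace Crest.Agent.H3.KK

variable {H : Type*} [NormedAddCommGroup H] [InnerProductSpace ℂ H] [CompleteSpace H]

/-- The segment `[-1, 1]` in the plane. -/
def seg : Set ℂ := {z | z.im = 0 ∧ |z.re| ≤ 1}

instance : CompactSpace seg := by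
  refine isCompact_iff_compactSpace.1 (Metric.isCompact_of_isClosed_isBounded ?_ ?_)
  · exact (isClosed_eq Complex.continuous_im continuous_const).inter
      (isClosed_le (Complex.continuous_re.abs) continuous_const)
  · refine (Metric.isBounded_closedBall (x := (0 : ℂ)) (r := 1)).subset fun z hz => ?_
    rw [mem_closedBall_zero_iff]
    refine (Complex.norm_le_abs_re_add_abs_im z).trans ?_
    rw [hz.1]; simpa using hz.2

theorem seg_re (z : seg) : ((z.1.re : ℝ) : ℂ) = z.1 := Complex.ext (by simp) (by simp [z.2.1])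

/-- The coordinate `log ((1 - r) / (1 + r))`. -/
noncomputable def lg (r : ℝ) : ℝ := Real.log ((1 - r) / (1 + r))

theorem continuous_fT (f : ℝ →ᵇ ℂ) :
    Continuous fun r : ℝ => ((√(1 - r ^ 2) : ℝ) : ℂ) * f (lg r) := by
  rw [continuous_iff_continuousAt]
  intro r
  by_cases hr : 0 < 1 - r ^ 2
  · have h1 : 1 + r ≠ 0 := by nlinarith
    have h2 : 1 - r ≠ 0 := by nlinarith
    have : ContinuousAt lg r := by
      refine ContinuousAt.log ?_ (div_ne_zero h2 h1)
      exact ContinuousAt.div (by fun_prop) (by fun_prop) h1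
    exact (by fun_prop : Continuous fun r : ℝ => ((√(1 - r ^ 2) : ℝ) : ℂ)).continuousAt.mul
      (f.continuous.continuousAt.comp this)
  · have h0 : √(1 - r ^ 2) = 0 := Real.sqrt_eq_zero'.2 (not_lt.1 hr)
    rw [ContinuousAt, h0, Complex.ofReal_zero, zero_mul]
    refine squeeze_zero_norm (a := fun r' : ℝ => √(1 - r' ^ 2) * ‖f‖) (fun r' => ?_) ?_
    · rw [norm_mul, Complex.norm_real, Real.norm_of_nonneg (Real.sqrt_nonneg _)]
      gcongr
      exact f.norm_coe_le_norm _
    · have : Tendsto (fun r' : ℝ => √(1 - r' ^ 2) * ‖f‖) (𝓝 r) (𝓝 (√(1 - r ^ 2) * ‖f‖)) :=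
        (by fun_prop : Continuous fun r' : ℝ => √(1 - r' ^ 2) * ‖f‖).continuousAt
      rwa [h0, zero_mul] at this

/-- `√(1 - r²) f (lg r)` on the segment. -/
noncomputable def fT (f : ℝ →ᵇ ℂ) : C(seg, ℂ) :=
  ⟨fun z => ((√(1 - z.1.re ^ 2) : ℝ) : ℂ) * f (lg z.1.re),
    (continuous_fT f).comp (Complex.continuous_re.comp continuous_subtype_val)⟩

theorem fT_apply (f : ℝ →ᵇ ℂ) (z : seg) :
    fT f z = ((√(1 - z.1.re ^ 2) : ℝ) : ℂ) * f (lg z.1.re) := rfl

/-- The reflection of the segment. -/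
def refl : C(seg, seg) :=
  ⟨fun z => ⟨-z.1, by simp [seg, z.2.1, z.2.2]⟩, by fun_prop⟩

/-- `conj f (-x)`. -/
noncomputable def sharp (f : ℝ →ᵇ ℂ) : ℝ →ᵇ ℂ :=
  star (f.compContinuous ⟨fun x => -x, continuous_neg⟩)

theorem sharp_apply (f : ℝ →ᵇ ℂ) (x : ℝ) : sharp f x = conj (f (-x)) := rfl

theorem fT_sharp (f : ℝ →ᵇ ℂ) : fT (sharp f) = star ((fT f).comp refl) := by
  ext z
  have : lg (-z.1.re) = -lg z.1.re := by
    unfold lg
    rw [← Real.log_inv, inv_div, sub_neg_eq_add, ← sub_eq_add_neg]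
  simp only [fT_apply, sharp_apply, ContinuousMap.star_apply, ContinuousMap.comp_apply, refl,
    ContinuousMap.coe_mk, Complex.neg_re, neg_sq, this, neg_neg, star_mul', Complex.star_def,
    Complex.conj_ofReal]

/-- `1 / cosh (x / 2)`. -/
noncomputable def tau : ℝ →ᵇ ℂ :=
  BoundedContinuousFunction.ofNormedAddCommGroup
    (fun x => ((2 * Real.exp (x / 2) / (1 + Real.exp x) : ℝ) : ℂ))
    (Complex.continuous_ofReal.comp (Continuous.div (by fun_prop) (by fun_prop)
      fun x => by positivity)) 1 fun x => by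
      rw [Complex.norm_real, Real.norm_of_nonneg (by positivity), div_le_one (by positivity)]
      have : Real.exp x = Real.exp (x / 2) * Real.exp (x / 2) := by
        rw [← Real.exp_add]; congr 1; ring
      nlinarith [sq_nonneg (Real.exp (x / 2) - 1)]

theorem tau_apply (x : ℝ) : tau x = ((2 * Real.exp (x / 2) / (1 + Real.exp x) : ℝ) : ℂ) := rfl

/-- `-tanh (x / 2)`. -/
noncomputable def bet : ℝ →ᵇ ℂ :=
  BoundedContinuousFunction.ofNormedAddCommGroup
    (fun x => (((1 - Real.exp x) / (1 + Real.exp x) : ℝ) : ℂ))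
    (Complex.continuous_ofReal.comp (Continuous.div (by fun_prop) (by fun_prop)
      fun x => by positivity)) 1 fun x => by
      rw [Complex.norm_real, Real.norm_eq_abs, abs_div, div_le_one (by positivity),
        abs_of_pos (by positivity : 0 < 1 + Real.exp x), abs_le]
      constructor <;> linarith [Real.exp_pos x]

theorem bet_apply (x : ℝ) : bet x = (((1 - Real.exp x) / (1 + Real.exp x) : ℝ) : ℂ) := rfl

theorem exp_lg {r : ℝ} (hr : 0 < 1 - r ^ 2) : Real.exp (lg r) = (1 - r) / (1 + r) :=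
  Real.exp_log (div_pos (by nlinarith) (by nlinarith))

theorem fT_ext {f : ℝ →ᵇ ℂ} {h : C(seg, ℂ)}
    (hh : ∀ z : seg, 0 < 1 - z.1.re ^ 2 → f (lg z.1.re) = h z) : fT f = fT 1 * h := by
  ext z
  simp only [fT_apply, ContinuousMap.mul_apply, BoundedContinuousFunction.coe_one, Pi.one_apply,
    mul_one]
  by_cases hr : 0 < 1 - z.1.re ^ 2
  · rw [hh z hr]
  · rw [Real.sqrt_eq_zero'.2 (not_lt.1 hr)]; simp

theorem fT_bet : fT bet = fT 1 * (ContinuousMap.id ℂ).restrict seg := by
  refine fT_ext fun z hr => ?_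
  have h1 : 1 + z.1.re ≠ 0 := by nlinarith
  rw [bet_apply, exp_lg hr]
  change _ = z.1
  rw [← seg_re z]
  congr 1
  simp only [Complex.ofReal_re]
  field_simp
  ring

theorem fT_tau : fT tau = fT 1 * fT 1 := by
  refine fT_ext fun z hr => ?_
  have h1 : 0 < 1 + z.1.re := by nlinarith
  have h2 : 0 < 1 - z.1.re := by nlinarith
  rw [tau_apply, exp_lg hr, fT_apply]
  simp only [BoundedContinuousFunction.coe_one, Pi.one_apply, mul_one]
  congr 1
  have h3 : Real.exp (lg z.1.re / 2) ^ 2 = (1 - z.1.re) / (1 + z.1.re) := by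
    rw [← exp_lg hr, sq, ← Real.exp_add]; congr 1; ring
  symm
  rw [Real.sqrt_eq_iff_mul_self_eq hr.le (by positivity)]
  have h4 : 1 + (1 - z.1.re) / (1 + z.1.re) = 2 / (1 + z.1.re) := by field_simp; ring
  rw [h4]
  have h5 : 2 * Real.exp (lg z.1.re / 2) / (2 / (1 + z.1.re)) =
      Real.exp (lg z.1.re / 2) * (1 + z.1.re) := by field_simp
  rw [h5]
  symm
  calc _ = Real.exp (lg z.1.re / 2) ^ 2 * (1 + z.1.re) ^ 2 := by ring
    _ = _ := by rw [h3]; field_simp; ring

theorem fT_one_sq : fT 1 * fT 1 =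
    1 - (ContinuousMap.id ℂ).restrict seg * (ContinuousMap.id ℂ).restrict seg := by
  ext z
  have h : 0 ≤ 1 - z.1.re ^ 2 := by
    have := z.2.2
    rw [abs_le] at this
    nlinarith
  simp only [fT_apply, ContinuousMap.mul_apply, BoundedContinuousFunction.coe_one, Pi.one_apply,
    mul_one, ContinuousMap.sub_apply, ContinuousMap.one_apply]
  change _ = 1 - z.1 * z.1
  rw [← Complex.ofReal_mul, Real.mul_self_sqrt h]
  conv_rhs => rw [← seg_re z]
  push_cast; ring

theorem star_fT (f : ℝ →ᵇ ℂ) : star (fT f) = fT (star f) := by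
  ext z
  simp only [fT_apply, ContinuousMap.star_apply, BoundedContinuousFunction.star_apply, star_mul',
    Complex.star_def, Complex.conj_ofReal]

theorem fT_mul (f g : ℝ →ᵇ ℂ) : fT f * fT g = fT (f * g) * fT 1 := by
  ext z
  simp only [fT_apply, ContinuousMap.mul_apply, BoundedContinuousFunction.mul_apply,
    BoundedContinuousFunction.coe_one, Pi.one_apply]
  ring

theorem hom_le (Ψ : C(seg, ℂ) →⋆ₐ[ℂ] (H →L[ℂ] H)) (g h : C(seg, ℂ)) (hgh : ∀ z, ‖g z‖ ≤ ‖h z‖)
    (v : H) : ‖Ψ g v‖ ≤ ‖Ψ h v‖ := by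
  let k : C(seg, ℂ) := ⟨fun z => ((√(‖h z‖ ^ 2 - ‖g z‖ ^ 2) : ℝ) : ℂ), by fun_prop⟩
  have hk : star h * h = star g * g + star k * k := by
    ext z
    have h0 : 0 ≤ ‖h z‖ ^ 2 - ‖g z‖ ^ 2 := by nlinarith [hgh z, norm_nonneg (g z)]
    simp only [ContinuousMap.mul_apply, ContinuousMap.star_apply, ContinuousMap.add_apply, k,
      ContinuousMap.coe_mk, Complex.star_def, Complex.conj_ofReal, Complex.conj_mul']
    rw [← Complex.ofReal_mul, Real.mul_self_sqrt h0]
    push_cast; ring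
  have e : ∀ a : C(seg, ℂ), (⟪v, Ψ (star a * a) v⟫_ℂ).re = ‖Ψ a v‖ ^ 2 := by
    intro a
    rw [map_mul, map_star]
    change (⟪v, star (Ψ a) (Ψ a v)⟫_ℂ).re = _
    rw [H3Mod.inner_star_right]
    exact inner_self_eq_norm_sq (𝕜 := ℂ) _
  have := e h
  rw [hk, map_add, ContinuousLinearMap.add_apply, inner_add_right, Complex.add_re, e, e] at this
  exact (sq_le_sq₀ (norm_nonneg _) (norm_nonneg _)).1 (by nlinarith [sq_nonneg ‖Ψ k v‖])

theorem ext_of_dense {σ : ℂ →+* ℂ} {T : H →L[ℂ] H} (hT : DenseRange T) {a b : H →SL[σ] H}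
    (h : ∀ v, a (T v) = b (T v)) : a = b := by
  ext v
  exact hT.induction_on (p := fun v => a v = b v) v (isClosed_eq a.continuous b.continuous) h

theorem denseRange_of_sa {T : H →L[ℂ] H} (hT : IsSelfAdjoint T) (hi : ∀ v, T v = 0 → v = 0) :
    DenseRange T := by
  have h : (LinearMap.range (T : H →ₗ[ℂ] H)).topologicalClosure = ⊤ := by
    rw [Submodule.topologicalClosure_eq_top_iff, Submodule.eq_bot_iff]
    intro v hv
    refine hi v (ext_inner_left ℂ fun w => ?_)
    rw [inner_zero_right, ← hT.star_eq, H3Mod.inner_star_right]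
    exact hv _ ⟨w, rfl⟩
  exact Submodule.dense_iff_topologicalClosure_eq_top.2 h

/-- The input of the construction of the modular operator. -/
structure Pair (B : H →L[ℂ] H) (A : H →SL[starRingEnd ℂ] H) : Prop where
  sa : IsSelfAdjoint B
  sym : ∀ v w, ⟪A v, w⟫_ℂ = ⟪A w, v⟫_ℂ
  sq : ∀ v, A (A v) = v - B (B v)
  anti : ∀ v, A (B v) = -B (A v)
  inj₁ : ∀ v, B v = v → v = 0
  inj₂ : ∀ v, B v = -v → v = 0

variable {B : H →L[ℂ] H} {A : H →SL[starRingEnd ℂ] H}

theorem Pair.norm_sq (h : Pair B A) (v : H) : ‖A v‖ ^ 2 + ‖B v‖ ^ 2 = ‖v‖ ^ 2 := by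
  have h1 : (⟪A v, A v⟫_ℂ).re = ‖A v‖ ^ 2 := inner_self_eq_norm_sq (𝕜 := ℂ) _
  have h2 : (⟪B v, B v⟫_ℂ).re = ‖B v‖ ^ 2 := inner_self_eq_norm_sq (𝕜 := ℂ) _
  have h3 : (⟪v, v⟫_ℂ).re = ‖v‖ ^ 2 := inner_self_eq_norm_sq (𝕜 := ℂ) _
  have h4 : ⟪B (B v), v⟫_ℂ = ⟪B v, B v⟫_ℂ := by
    rw [← H3Mod.inner_star_left B (B v) v, h.sa.star_eq]
  rw [h.sym v (A v), h.sq, inner_sub_left, h4, Complex.sub_re, h2, h3] at h1
  linarith

theorem Pair.spec (h : Pair B A) : spectrum ℂ B ⊆ seg := by
  intro z hz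
  have h1 := h.sa.mem_spectrum_eq_re hz
  have hB : ‖B‖ ≤ 1 := ContinuousLinearMap.opNorm_le_bound _ zero_le_one fun v => by
    rw [one_mul]
    exact (sq_le_sq₀ (norm_nonneg _) (norm_nonneg _)).1
      (by nlinarith [h.norm_sq v, sq_nonneg ‖A v‖])
  have h2 := spectrum.norm_le_norm_mul_of_mem hz
  have h3 : ‖(1 : H →L[ℂ] H)‖ ≤ 1 := ContinuousLinearMap.norm_id_le
  refine ⟨by rw [h1]; simp, (Complex.abs_re_le_norm z).trans (h2.trans ?_)⟩
  exact mul_le_one₀ hB (norm_nonneg _) h3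

theorem Pair.exists_hom (h : Pair B A) : ∃ Ψ : C(seg, ℂ) →⋆ₐ[ℂ] (H →L[ℂ] H),
    Ψ ((ContinuousMap.id ℂ).restrict seg) = B ∧
    (∀ g v, A (Ψ g v) = Ψ (star (g.comp refl)) (A v)) ∧
    ∀ v, B v = 0 → ∀ g, Ψ g v = g ⟨0, by simp [seg]⟩ • v := by
  let Ψ := cfcHomSuperset (R := ℂ) h.sa.isStarNormal h.spec
  have hc : Continuous Ψ := cfcHomSuperset_continuous _ _
  have hid : Ψ ((ContinuousMap.id ℂ).restrict seg) = B := cfcHomSuperset_id _ _
  have hs : star ((ContinuousMap.id ℂ).restrict seg) = (ContinuousMap.id ℂ).restrict seg := by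
    ext z
    change conj z.1 = z.1
    exact Complex.conj_eq_iff_im.2 z.2.1
  have hk : ∀ r : ℂ, Ψ (.const seg r) = r • 1 := fun r => by
    rw [← Algebra.algebraMap_eq_smul_one, ← Ψ.commutes]; rfl
  refine ⟨Ψ, hid, fun g => ?_, fun v hv g => ?_⟩
  · have hi : ∀ v, A (Ψ ((ContinuousMap.id ℂ).restrict seg) v) =
        Ψ (star (((ContinuousMap.id ℂ).restrict seg).comp refl)) (A v) := by
      intro v
      have : star (((ContinuousMap.id ℂ).restrict seg).comp refl) =
          -(ContinuousMap.id ℂ).restrict seg := by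
        ext z
        change conj (-z.1) = -z.1
        rw [map_neg, Complex.conj_eq_iff_im.2 z.2.1]
      rw [this, map_neg, hid, h.anti]; rfl
    induction g using ContinuousMap.induction_on_of_compact with
    | const r =>
      intro v
      have : star ((ContinuousMap.const seg r).comp refl) = .const seg (conj r) := rfl
      rw [this, hk, hk]
      simp
    | id => exact hi
    | star_id => rw [hs]; exact hi
    | add f g hf hg =>
      intro v
      rw [ContinuousMap.add_comp, star_add, map_add, map_add, ContinuousLinearMap.add_apply,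
        ContinuousLinearMap.add_apply, map_add, hf, hg]
    | mul f g hf hg =>
      intro v
      rw [ContinuousMap.mul_comp, star_mul', map_mul, map_mul]
      change A (Ψ f (Ψ g v)) = Ψ _ (Ψ _ (A v))
      rw [hf, hg]
    | frequently f hf =>
      intro v
      have hcl : IsClosed {g : C(seg, ℂ) | A (Ψ g v) = Ψ (star (g.comp refl)) (A v)} := by
        refine isClosed_eq (A.continuous.comp ((ContinuousLinearMap.apply ℂ H v).continuous.comp hc))
          ((ContinuousLinearMap.apply ℂ H (A v)).continuous.comp (hc.comp ?_))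
        exact continuous_star.comp (ContinuousMap.continuous_precomp refl)
      exact hcl.mem_of_frequently_of_tendsto (hf.mono fun g hg => hg v) tendsto_id
  · induction g using ContinuousMap.induction_on_of_compact with
    | const r => rw [hk]; rfl
    | id => rw [hid, hv]; simp
    | star_id => rw [hs, hid, hv]; simp
    | add f g hf hg => rw [map_add, ContinuousLinearMap.add_apply, hf, hg, ← add_smul]; rfl
    | mul f g hf hg =>
      rw [map_mul]
      change Ψ f (Ψ g v) = _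
      rw [hg, map_smul, hf, smul_smul, mul_comm]; rfl
    | frequently f hf =>
      have hcl : IsClosed {g : C(seg, ℂ) | Ψ g v = g ⟨0, by simp [seg]⟩ • v} :=
        isClosed_eq ((ContinuousLinearMap.apply ℂ H v).continuous.comp hc)
          ((continuous_eval_const _).smul continuous_const)
      exact hcl.mem_of_frequently_of_tendsto hf tendsto_id

theorem Pair.exists_calc (h : Pair B A) : ∃ (D : LineCalculus H) (J : H ≃ₗᵢ⋆[ℂ] H),
    D.apply bet = B ∧ (∀ v, J (J v) = v) ∧ (∀ v, D.apply tau (J v) = A v) ∧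
    (∀ v, J (D.apply tau v) = A v) ∧ (∀ v, D.apply tau v = 0 → v = 0) ∧
    (∀ f v, J (D.apply f v) = D.apply (sharp f) (J v)) ∧
    ∀ v, B v = 0 → ∀ f, D.apply f v = f 0 • v := by
  obtain ⟨Ψ, hid, hA, h0⟩ := h.exists_hom
  set T := Ψ (fT 1) with hT
  have cm : ∀ f g v, Ψ f (Ψ g v) = Ψ (f * g) v := fun f g v => by rw [map_mul]; rfl
  have hTT : ∀ v, T (T v) = v - B (B v) := fun v => by
    rw [hT, cm, fT_one_sq, map_sub, map_mul, map_one, hid]; rfl
  have hTs : IsSelfAdjoint T := by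
    rw [IsSelfAdjoint, hT, ← map_star, star_fT, star_one]
  have hTi : ∀ v, T v = 0 → v = 0 := by
    intro v hv
    have h1 := hTT v
    rw [hv, map_zero] at h1
    have h2 : B v + v = 0 := h.inj₁ _ (by rw [map_add, ← sub_eq_zero.1 h1.symm, add_comm])
    exact h.inj₂ v (eq_neg_of_add_eq_zero_left h2)
  have hd : DenseRange T := denseRange_of_sa hTs hTi
  have hb : ∀ (f : ℝ →ᵇ ℂ) v, ‖Ψ (fT f) v‖ ≤ ‖f‖ * ‖T v‖ := by
    intro f v
    have := hom_le Ψ (fT f) (((‖f‖ : ℝ) : ℂ) • fT 1) (fun z => by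
      simp only [fT_apply, ContinuousMap.smul_apply, BoundedContinuousFunction.coe_one,
        Pi.one_apply, mul_one, smul_eq_mul, norm_mul, Complex.norm_real, norm_norm]
      rw [mul_comm]
      gcongr
      exact f.norm_coe_le_norm _) v
    rwa [map_smul, ContinuousLinearMap.smul_apply, norm_smul, Complex.norm_real, norm_norm] at this
  let E : (ℝ →ᵇ ℂ) → H →L[ℂ] H := fun f =>
    (Ψ (fT f) : H →ₗ[ℂ] H).extendOfNorm (T : H →ₗ[ℂ] H)
  have hE : ∀ f v, E f (T v) = Ψ (fT f) v := fun f v =>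
    LinearMap.extendOfNorm_eq (f := (Ψ (fT f) : H →ₗ[ℂ] H)) (e := (T : H →ₗ[ℂ] H)) hd
      ⟨_, hb f⟩ v
  have hEn : ∀ f v, ‖E f v‖ ≤ ‖f‖ * ‖v‖ := fun f v =>
    LinearMap.norm_extendOfNorm_apply_le (f := (Ψ (fT f) : H →ₗ[ℂ] H)) (e := (T : H →ₗ[ℂ] H)) hd
      _ (hb f) v
  have hTE : ∀ f v, T (E f v) = Ψ (fT f) v := by
    intro f v
    have : T ∘L E f = Ψ (fT f) := ext_of_dense hd fun w => by
      change T (E f (T w)) = _
      rw [hE, hT, cm, cm, mul_comm]
    exact congrArg (fun a : H →L[ℂ] H => a v) this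
  have hinj : ∀ a b : H →L[ℂ] H, (∀ v, T (a v) = T (b v)) → a = b := fun a b hab => by
    ext v
    exact sub_eq_zero.1 (hTi _ (by rw [map_sub, hab, sub_self]))
  have hone : E 1 = 1 := hinj _ _ fun v => by rw [hTE]; rfl
  have hmul : ∀ f g, E (f * g) = E f * E g := fun f g => hinj _ _ fun v => by
    change _ = T (E f (E g v))
    rw [hTE, hTE]
    refine sub_eq_zero.1 (hTi _ ?_)
    have e1 : T (Ψ (fT f) (E g v)) = Ψ (fT f) (T (E g v)) := by rw [hT, cm, cm, mul_comm]
    rw [map_sub, e1, hTE, cm (fT f) (fT g), fT_mul, hT, cm, mul_comm, sub_self]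
  have hadd : ∀ f g, E (f + g) = E f + E g := fun f g => hinj _ _ fun v => by
    rw [ContinuousLinearMap.add_apply, map_add, hTE, hTE, hTE, ← ContinuousLinearMap.add_apply,
      ← map_add]
    congr 2
    ext z
    simp only [fT_apply, ContinuousMap.add_apply, BoundedContinuousFunction.add_apply, mul_add]
  have hsm : ∀ (c : ℂ) f, E (c • f) = c • E f := fun c f => hinj _ _ fun v => by
    rw [ContinuousLinearMap.smul_apply, map_smul, hTE, hTE, ← ContinuousLinearMap.smul_apply,
      ← map_smul]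
    congr 2
    ext z
    simp only [fT_apply, ContinuousMap.smul_apply, BoundedContinuousFunction.smul_apply,
      smul_eq_mul]
    ring
  have hst : ∀ f, E (star f) = star (E f) := fun f => hinj _ _ fun v => by
    refine ext_inner_left ℂ fun w => ?_
    rw [hTE, ← star_fT, map_star, H3Mod.inner_star_right, ← hE f w, ← H3Mod.inner_star_right,
      ← H3Mod.inner_star_right T, hTs.star_eq]
  let Φ : (ℝ →ᵇ ℂ) →⋆ₐ[ℂ] (H →L[ℂ] H) :=
    { toFun := E
      map_one' := hone
      map_mul' := hmul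
      map_zero' := by simpa using hsm 0 0
      map_add' := hadd
      commutes' := fun c => by
        rw [Algebra.algebraMap_eq_smul_one, hsm, hone, Algebra.algebraMap_eq_smul_one]
      map_star' := hst }
  have hwin : ∀ x : H, ∀ ε : ℝ, 0 < ε → ∃ f : ℝ →ᵇ ℂ,
      HasCompactSupport (f : ℝ → ℂ) ∧ ‖E f x - x‖ < ε := by
    intro x ε hε
    obtain ⟨w, hw⟩ := hd.exists_dist_lt x (by positivity : 0 < ε / 4)
    rw [dist_eq_norm] at hw
    set η := ε / (4 * (‖w‖ + 1)) with hη
    have hη0 : 0 < η := by positivity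
    have hK : IsCompact (lg '' {r : ℝ | η ≤ √(1 - r ^ 2)}) := by
      refine IsCompact.image_of_continuousOn (Metric.isCompact_of_isClosed_isBounded
        (isClosed_le continuous_const (by fun_prop)) ?_) fun r hr => ?_
      · refine (Metric.isBounded_Icc (-1 : ℝ) 1).subset fun r hr => ?_
        have : 0 < 1 - r ^ 2 := Real.sqrt_pos.1 (hη0.trans_le hr)
        constructor <;> nlinarith
      · have : 0 < 1 - r ^ 2 := Real.sqrt_pos.1 (hη0.trans_le hr)
        have h1 : 1 + r ≠ 0 := by nlinarith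
        have h2 : 1 - r ≠ 0 := by nlinarith
        exact (ContinuousAt.log (ContinuousAt.div (by fun_prop) (by fun_prop) h1)
          (div_ne_zero h2 h1)).continuousWithinAt
    obtain ⟨g, hg1, -, hgc, hg⟩ := exists_continuous_one_zero_of_isCompact hK
      isClosed_empty (Set.disjoint_empty _)
    have hc : Continuous fun u => ((g u : ℝ) : ℂ) := Complex.continuous_ofReal.comp g.continuous
    have hs : HasCompactSupport fun u => ((g u : ℝ) : ℂ) :=
      hgc.comp_left (g := fun r : ℝ => (r : ℂ)) (by simp)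
    let f : ℝ →ᵇ ℂ := ofCompactSupport _ hc hs
    have hf : ‖f‖ ≤ 1 := (BoundedContinuousFunction.norm_le zero_le_one).2 fun u => by
      change ‖((g u : ℝ) : ℂ)‖ ≤ 1
      rw [Complex.norm_real, Real.norm_of_nonneg (hg u).1]; exact (hg u).2
    refine ⟨f, hs, ?_⟩
    have e1 : ‖E f (T w) - T w‖ ≤ η * ‖w‖ := by
      have := hom_le Ψ (fT f - fT 1) (((η : ℝ) : ℂ) • 1) (fun z => by
        simp only [fT_apply, ContinuousMap.smul_apply, BoundedContinuousFunction.coe_one,
          Pi.one_apply, mul_one, smul_eq_mul, ContinuousMap.sub_apply, ContinuousMap.one_apply,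
          Complex.norm_real, Real.norm_of_nonneg hη0.le]
        change ‖_ * ((g (lg z.1.re) : ℝ) : ℂ) - _‖ ≤ η
        rw [← Complex.ofReal_mul, ← Complex.ofReal_sub, Complex.norm_real, Real.norm_eq_abs]
        by_cases hz : η ≤ √(1 - z.1.re ^ 2)
        · rw [hg1 ⟨_, hz, rfl⟩]; simpa using hη0.le
        · have := hg (lg z.1.re)
          have h1 := Real.sqrt_nonneg (1 - z.1.re ^ 2)
          rw [abs_le]
          constructor <;> nlinarith [this.1, this.2]) w
      rwa [map_sub, map_smul, map_one, ContinuousLinearMap.sub_apply, ← hE,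
        ContinuousLinearMap.smul_apply, norm_smul, Complex.norm_real,
        Real.norm_of_nonneg hη0.le] at this
    have e2 : ‖E f (x - T w)‖ ≤ ‖x - T w‖ := (hEn f _).trans (by
      nlinarith [norm_nonneg (x - T w)])
    have e3 : η * ‖w‖ ≤ ε / 4 := by
      rw [hη, div_mul_eq_mul_div, div_le_div_iff₀ (by positivity) (by positivity)]
      nlinarith
    have e4 : E f x - x = E f (x - T w) + (E f (T w) - T w) - (x - T w) := by
      rw [map_sub]; abel
    rw [e4]
    calc _ ≤ ‖E f (x - T w)‖ + ‖E f (T w) - T w‖ + ‖x - T w‖ :=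
          (norm_sub_le _ _).trans (by gcongr; exact norm_add_le _ _)
      _ < ε := by linarith
  have hAn : ∀ v, ‖A v‖ = ‖T v‖ := by
    intro v
    have h1 : (⟪T v, T v⟫_ℂ).re = ‖T v‖ ^ 2 := inner_self_eq_norm_sq (𝕜 := ℂ) _
    have h2 : (⟪A v, A v⟫_ℂ).re = ‖A v‖ ^ 2 := inner_self_eq_norm_sq (𝕜 := ℂ) _
    rw [← H3Mod.inner_star_left T (T v) v, hTs.star_eq, hTT] at h1
    rw [h.sym v (A v), h.sq, h1] at h2
    exact ((sq_eq_sq₀ (norm_nonneg _) (norm_nonneg _)).1 h2).symm
  let J₀ : H →SL[starRingEnd ℂ] H :=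
    (A : H →ₛₗ[starRingEnd ℂ] H).extendOfNorm (T : H →ₗ[ℂ] H)
  have hJ : ∀ v, J₀ (T v) = A v := fun v =>
    LinearMap.extendOfNorm_eq (f := (A : H →ₛₗ[starRingEnd ℂ] H)) (e := (T : H →ₗ[ℂ] H)) hd
      ⟨1, fun v => by simp [hAn]⟩ v
  have hJn : ∀ v, ‖J₀ v‖ = ‖v‖ := fun v =>
    hd.induction_on (p := fun v => ‖J₀ v‖ = ‖v‖) v
      (isClosed_eq J₀.continuous.norm continuous_norm) fun w => by rw [hJ, hAn]
  have hAf : ∀ f v, A (Ψ (fT f) v) = Ψ (fT (sharp f)) (A v) := fun f v => by rw [hA, fT_sharp]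
  have hs1 : sharp 1 = 1 := by ext x; simp [sharp_apply]
  have hAT : ∀ v, A (T v) = T (A v) := fun v => by rw [hT, hAf, hs1]
  have hTJ : ∀ v, T (J₀ v) = A v := by
    intro v
    have : T.comp J₀ = A := ext_of_dense hd fun w => by
      change T (J₀ (T w)) = _
      rw [hJ, hAT]
    exact congrArg (fun a : H →SL[starRingEnd ℂ] H => a v) this
  have hJJ : ∀ v, J₀ (J₀ v) = v := fun v =>
    hd.induction_on (p := fun v => J₀ (J₀ v) = v) v
      (isClosed_eq (J₀.continuous.comp J₀.continuous) continuous_id) fun w => by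
        refine sub_eq_zero.1 (hTi _ ?_)
        rw [map_sub, hTJ, hJ, h.sq, hTT, sub_self]
  let J : H ≃ₗᵢ⋆[ℂ] H :=
    { toFun := J₀
      map_add' := map_add J₀
      map_smul' := map_smulₛₗ J₀
      invFun := J₀
      left_inv := hJJ
      right_inv := hJJ
      norm_map' := hJn }
  have htau : E tau = T := hinj _ _ fun v => by rw [hTE, fT_tau, ← cm]
  refine ⟨⟨Φ, hwin⟩, J, ?_, hJJ, ?_, ?_, ?_, fun f v => ?_, fun v hv f => ?_⟩
  · exact hinj _ _ fun v => by
      change T (E bet v) = _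
      rw [hTE, fT_bet, ← cm, hid]
  · intro v; change E tau (J₀ v) = _; rw [htau, hTJ]
  · intro v; change J₀ (E tau v) = _; rw [htau, hJ]
  · intro v; change E tau v = 0 → _; rw [htau]; exact hTi v
  · change J₀ (E f v) = E (sharp f) (J₀ v)
    have : J₀.comp (E f) = (E (sharp f)).comp J₀ := ext_of_dense hd fun w => by
      change J₀ (E f (T w)) = E (sharp f) (J₀ (T w))
      refine sub_eq_zero.1 (hTi _ ?_)
      rw [map_sub, hTJ, hTE, hE, hJ, hAf, sub_self]
    exact congrArg (fun a : H →SL[starRingEnd ℂ] H => a v) this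
  · change E f v = _
    have h1 : T v = v := by rw [hT, h0 v hv, fT_apply]; simp
    rw [← h1, hE, h0 v hv, fT_apply, h1]
    simp [lg]

end Crest.Agent.H3.KK
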