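import Mathlib

/-! Two lemmas of complex analysis used in the proof of Tomita's theorem. -/

set_option autoImplicit false
open scoped Topology Real FourierTransform
open Filter MeasureTheory Complex

namespace Crest.Agent.H3.KK

theorem kb (t : ℝ) : Real.exp (2 * |t|) / Real.cosh (π * t) ≤ 4 * (1 + t ^ 2)⁻¹ := by
  have h1 : Real.exp (3 * |t|) ≤ 2 * Real.cosh (π * t) := by
    rw [← Real.cosh_abs, Real.cosh_eq, abs_mul, abs_of_pos Real.pi_pos]
    have : Real.exp (3 * |t|) ≤ Real.exp (π * |t|) :=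
      Real.exp_le_exp.2 (by gcongr; exact Real.pi_gt_three.le)
    linarith [Real.exp_pos (-(π * |t|))]
  have h2 : 1 + t ^ 2 ≤ 2 * Real.exp |t| := by
    have := Real.quadratic_le_exp_of_nonneg (abs_nonneg t)
    rw [sq_abs] at this
    linarith [abs_nonneg t]
  have h3 : Real.exp (3 * |t|) = Real.exp (2 * |t|) * Real.exp |t| := by
    rw [← Real.exp_add]; congr 1; ring
  rw [← div_eq_mul_inv, div_le_div_iff₀ (Real.cosh_pos _) (by positivity)]
  nlinarith [Real.exp_pos (2 * |t|)]

/-- The kernel `exp (-θ t) / cosh (π t)`. -/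
noncomputable def ker (θ t : ℝ) : ℝ := Real.exp (-(θ * t)) / Real.cosh (π * t)

theorem ker_pos (θ t : ℝ) : 0 < ker θ t := div_pos (Real.exp_pos _) (Real.cosh_pos _)

theorem continuous_ker (θ : ℝ) : Continuous (ker θ) :=
  Continuous.div (by fun_prop) (by fun_prop) fun _ => (Real.cosh_pos _).ne'

theorem ker_le {θ : ℝ} (hθ : |θ| ≤ 1) (t : ℝ) : ker θ t ≤ 4 * (1 + t ^ 2)⁻¹ := by
  refine le_trans ?_ (kb t)
  unfold ker
  gcongr
  calc -(θ * t) ≤ |θ * t| := neg_le_abs _
    _ = |θ| * |t| := abs_mul _ _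
    _ ≤ 2 * |t| := by gcongr; linarith

theorem integrable_ker {θ : ℝ} (hθ : |θ| ≤ 1) : Integrable (ker θ) :=
  (integrable_inv_one_add_sq.const_mul 4).mono' (continuous_ker θ).aestronglyMeasurable
    (Eventually.of_forall fun t => by
      rw [Real.norm_of_nonneg (ker_pos θ t).le]; exact ker_le hθ t)

theorem integrable_ker_mul {θ : ℝ} (hθ : |θ| ≤ 1) {h : ℝ → ℂ} (hc : Continuous h) {C : ℝ}
    (hb : ∀ t, ‖h t‖ ≤ C) : Integrable fun t => (ker θ t : ℂ) * h t :=
  ((integrable_ker hθ).mul_const C).mono'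
    ((continuous_ofReal.comp (continuous_ker θ)).mul hc).aestronglyMeasurable
    (Eventually.of_forall fun t => by
      rw [norm_mul, norm_real, Real.norm_of_nonneg (ker_pos θ t).le]
      exact mul_le_mul_of_nonneg_left (hb t) (ker_pos θ t).le)

theorem integral_ker_pos {θ : ℝ} (hθ : |θ| ≤ 1) : 0 < ∫ t, ker θ t := by
  rw [integral_pos_iff_support_of_nonneg (fun t => (ker_pos θ t).le) (integrable_ker hθ)]
  have : Function.support (ker θ) = Set.univ := Set.eq_univ_of_forall fun t => (ker_pos θ t).ne'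
  rw [this]; simp

theorem cosh_le_norm_sin (z : ℂ) (hz : 1 ≤ |z.im|) : Real.cosh z.im ≤ 2 * ‖sin z‖ := by
  have h1 : ‖sin z‖ ^ 2 = (Real.sin z.re * Real.cosh z.im) ^ 2 +
      (Real.cos z.re * Real.sinh z.im) ^ 2 := by
    rw [sin_eq, ← ofReal_sin, ← ofReal_cos, ← ofReal_cosh, ← ofReal_sinh, ← ofReal_mul,
      ← ofReal_mul, Complex.sq_norm, normSq_add_mul_I]
  have h2 : Real.cosh z.im ≤ 2 * |Real.sinh z.im| := by
    rw [Real.abs_sinh, ← Real.cosh_abs, Real.cosh_eq, Real.sinh_eq]
    have h3 : 3 ≤ Real.exp |z.im| * Real.exp |z.im| := by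
      nlinarith [Real.add_one_le_exp |z.im|]
    have h4 : Real.exp |z.im| * Real.exp (-|z.im|) = 1 := by rw [← Real.exp_add]; simp
    nlinarith [Real.exp_pos |z.im|, Real.exp_pos (-|z.im|)]
  refine h2.trans (mul_le_mul_of_nonneg_left ?_ zero_le_two)
  rw [← sq_le_sq₀ (abs_nonneg _) (norm_nonneg _), sq_abs, h1]
  nlinarith [Real.sin_sq_add_cos_sq z.re, Real.cosh_sq z.im, sq_nonneg (Real.sin z.re)]

theorem strip {F : ℂ → ℂ} (hF : Differentiable ℂ F) {C : ℝ}
    (hC : ∀ z : ℂ, |z.re| ≤ 1 / 2 → ‖F z‖ ≤ C) {θ : ℝ} (hθ : |θ| ≤ 1) :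
    ∫ t : ℝ, (ker θ t : ℂ) * (exp (I * θ / 2) * F (1 / 2 + t * I) +
      exp (-(I * θ / 2)) * F (-(1 / 2) + t * I)) =
      ((2 * Real.cos (θ / 2) * ∫ t, ker θ t : ℝ) : ℂ) * F 0 := by
  let S : ℂ → ℂ := fun z => sin (π * z)
  have hS : Differentiable ℂ S := by fun_prop
  have hS0 : ∀ z : ℂ, |z.re| ≤ 1 / 2 → dslope S 0 z ≠ 0 := by
    intro z hz
    by_cases h0 : z = 0
    · subst h0
      rw [dslope_same]
      have : HasDerivAt S (cos (π * 0) * (π * 1)) 0 := ((hasDerivAt_id (0 : ℂ)).const_mul _).csin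
      rw [this.deriv]; simp
    · intro h1
      have := sub_smul_dslope S 0 z
      rw [h1, smul_zero] at this
      have h2 : sin (π * z) = 0 := by simpa [S] using this.symm
      obtain ⟨k, hk⟩ := sin_eq_zero_iff.1 h2
      have h3 : z = k := mul_left_cancel₀ (ofReal_ne_zero.2 Real.pi_ne_zero) (hk.trans (mul_comm _ _))
      rw [h3, intCast_re, ← Int.cast_abs] at hz
      have h4 : |k| < 1 := by exact_mod_cast (by linarith : ((|k| : ℤ) : ℝ) < 1)
      exact h0 (by rw [h3, Int.abs_lt_one_iff.1 h4]; simp)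
  let G : ℂ → ℂ := fun z => dslope F 0 z * exp (I * θ * z) / dslope S 0 z
  have hG : DifferentiableOn ℂ G {z | |z.re| ≤ 1 / 2} := by
    have h1 : Differentiable ℂ (dslope F 0) := differentiableOn_univ.1
      ((differentiableOn_dslope univ_mem).2 hF.differentiableOn)
    have h2 : Differentiable ℂ (dslope S 0) := differentiableOn_univ.1
      ((differentiableOn_dslope univ_mem).2 hS.differentiableOn)
    exact DifferentiableOn.div (by fun_prop) h2.differentiableOn hS0
  have hGe : ∀ z : ℂ, z ≠ 0 → G z = (F z - F 0) * exp (I * θ * z) / sin (π * z) := by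
    intro z hz
    simp only [G, dslope_of_ne _ hz, slope_def_field, sub_zero, S, mul_zero, sin_zero]
    field_simp
  have hC0 : ‖F 0‖ ≤ C := hC 0 (by simp)
  have hp : ∀ t : ℝ, G (1 / 2 + t * I) =
      ker θ t * (exp (I * θ / 2) * (F (1 / 2 + t * I) - F 0)) := by
    intro t
    have h1 : sin (π * (1 / 2 + t * I)) = (Real.cosh (π * t) : ℂ) := by
      rw [show (π : ℂ) * (1 / 2 + t * I) = (π * t) * I + π / 2 by ring, sin_add_pi_div_two,
        cos_mul_I]; push_cast; rfl
    have h2 : exp (I * θ * (1 / 2 + t * I)) = exp (I * θ / 2) * (Real.exp (-(θ * t)) : ℂ) := by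
      rw [ofReal_exp, ← exp_add]; congr 1; push_cast
      linear_combination (θ * t : ℂ) * I_mul_I
    rw [hGe _ (fun h => by simpa using congrArg re h), h1, h2, ker]
    push_cast; ring
  have hm : ∀ t : ℝ, G (-(1 / 2) + t * I) =
      -(ker θ t * (exp (-(I * θ / 2)) * (F (-(1 / 2) + t * I) - F 0))) := by
    intro t
    have h1 : sin (π * (-(1 / 2) + t * I)) = -(Real.cosh (π * t) : ℂ) := by
      rw [show (π : ℂ) * (-(1 / 2) + t * I) = (π * t) * I - π / 2 by ring, sin_sub_pi_div_two,
        cos_mul_I]; push_cast; rfl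
    have h2 : exp (I * θ * (-(1 / 2) + t * I)) =
        exp (-(I * θ / 2)) * (Real.exp (-(θ * t)) : ℂ) := by
      rw [ofReal_exp, ← exp_add]; congr 1; push_cast
      linear_combination (θ * t : ℂ) * I_mul_I
    rw [hGe _ (fun h => by simpa using congrArg re h), h1, h2, ker]
    push_cast; ring
  have hint : ∀ (a : ℝ) (c : ℂ), |a| ≤ 1 / 2 →
      Integrable fun t : ℝ => (ker θ t : ℂ) * (c * (F (a + t * I) - F 0)) := by
    intro a c ha
    refine integrable_ker_mul hθ (by have := hF.continuous; fun_prop) (C := ‖c‖ * (C + C)) fun t => ?_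
    rw [norm_mul]
    gcongr
    exact (norm_sub_le _ _).trans (add_le_add (hC _ (by simpa using ha)) hC0)
  have ip := hint (1 / 2) (exp (I * θ / 2)) (by rw [abs_of_pos] <;> norm_num)
  have im' := hint (-(1 / 2)) (exp (-(I * θ / 2))) (by rw [abs_neg, abs_of_pos] <;> norm_num)
  push_cast at ip im'
  have hh : ∀ T : ℝ, 1 ≤ |T| →
      ‖∫ x : ℝ in (-(1 / 2))..(1 / 2), G (x + T * I)‖ ≤ 16 * C * (1 + T ^ 2)⁻¹ := by
    intro T hT
    refine (intervalIntegral.norm_integral_le_of_norm_le_const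
      (C := 16 * C * (1 + T ^ 2)⁻¹) fun x hx => ?_).trans (by norm_num)
    rw [Set.uIoc_of_le (by norm_num)] at hx
    have hT0 : T ≠ 0 := by rintro rfl; norm_num at hT
    have h1 := cosh_le_norm_sin (π * (x + T * I)) (by
      simp only [mul_im, ofReal_re, add_im, ofReal_im, I_im, mul_one, I_re, mul_zero, add_zero,
        zero_add, zero_mul, abs_mul, abs_of_pos Real.pi_pos]
      nlinarith [Real.pi_gt_three])
    simp only [mul_im, ofReal_re, add_im, ofReal_im, I_im, mul_one, I_re, mul_zero, add_zero,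
      zero_add, zero_mul] at h1
    have h2 : ‖exp (I * θ * (x + T * I))‖ ≤ Real.exp (2 * |T|) := by
      rw [norm_exp]
      refine Real.exp_le_exp.2 ?_
      have : (I * θ * (x + T * I)).re = -(θ * T) := by simp
      rw [this]
      calc -(θ * T) ≤ |θ * T| := neg_le_abs _
        _ = |θ| * |T| := abs_mul _ _
        _ ≤ 2 * |T| := by gcongr; linarith
    have h3 : ‖F (x + T * I) - F 0‖ ≤ 2 * C := (norm_sub_le _ _).trans (by
      have := hC (x + T * I) (by
        rw [show (x + T * I : ℂ).re = x by simp, abs_le]; exact ⟨hx.1.le, hx.2⟩)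
      linarith)
    have h4 := kb T
    have hc := Real.cosh_pos (π * T)
    have hC1 : 0 ≤ C := (norm_nonneg _).trans hC0
    rw [hGe _ (fun h => hT0 (by simpa using congrArg im h)), norm_div, norm_mul]
    calc _ ≤ 2 * C * Real.exp (2 * |T|) / (Real.cosh (π * T) / 2) := by
          gcongr; linarith
      _ = 4 * C * (Real.exp (2 * |T|) / Real.cosh (π * T)) := by field_simp; ring
      _ ≤ 4 * C * (4 * (1 + T ^ 2)⁻¹) := by gcongr
      _ = _ := by ring
  have hz : Tendsto (fun T : ℝ => 16 * C * (1 + T ^ 2)⁻¹) atTop (𝓝 0) := by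
    have : Tendsto (fun T : ℝ => 1 + T ^ 2) atTop atTop :=
      tendsto_atTop_add_const_left _ _ (tendsto_pow_atTop two_ne_zero)
    simpa using this.inv_tendsto_atTop.const_mul (16 * C)
  have l1 : Tendsto (fun T : ℝ => ∫ x : ℝ in (-(1 / 2))..(1 / 2), G (x + (-T : ℝ) * I)) atTop
      (𝓝 0) := squeeze_zero_norm' ((eventually_ge_atTop 1).mono fun T hT => by
        simpa using hh (-T) (by rw [abs_neg]; exact hT.trans (le_abs_self _))) hz
  have l2 : Tendsto (fun T : ℝ => ∫ x : ℝ in (-(1 / 2))..(1 / 2), G (x + T * I)) atTop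
      (𝓝 0) := squeeze_zero_norm' ((eventually_ge_atTop 1).mono fun T hT =>
        hh T (hT.trans (le_abs_self _))) hz
  have l3 := intervalIntegral_tendsto_integral ip tendsto_neg_atTop_atBot tendsto_id
  have l4 := intervalIntegral_tendsto_integral im'.neg tendsto_neg_atTop_atBot tendsto_id
  have l5 := ((l1.sub l2).add (l3.const_smul I)).sub (l4.const_smul I)
  have l6 := tendsto_nhds_unique (l5.congr fun T => ?_) (tendsto_const_nhds (x := (0 : ℂ)))
  · rw [sub_zero, zero_add, ← smul_sub, smul_eq_zero_iff_right I_ne_zero] at l6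
    simp only [Pi.neg_apply] at l6
    rw [integral_neg, sub_neg_eq_add, ← integral_add ip im'] at l6
    have ik : Integrable fun t => (ker θ t : ℂ) *
        ((exp (I * θ / 2) + exp (-(I * θ / 2))) * F 0) :=
      integrable_ker_mul hθ continuous_const fun _ => le_rfl
    have e1 : ∀ t : ℝ, (ker θ t : ℂ) * (exp (I * θ / 2) * F (1 / 2 + t * I) +
        exp (-(I * θ / 2)) * F (-(1 / 2) + t * I)) =
        ((ker θ t : ℂ) * (exp (I * θ / 2) * (F (1 / 2 + t * I) - F 0)) +
          (ker θ t : ℂ) * (exp (-(I * θ / 2)) * (F (-(1 / 2) + t * I) - F 0))) +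
          (ker θ t : ℂ) * ((exp (I * θ / 2) + exp (-(I * θ / 2))) * F 0) := fun t => by ring
    have e2 : exp (I * θ / 2) + exp (-(I * θ / 2)) = 2 * (Real.cos (θ / 2) : ℂ) := by
      rw [ofReal_cos, two_cos]; push_cast; congr 2 <;> ring
    simp only [e1]
    rw [integral_add (f := fun t : ℝ => (ker θ t : ℂ) * (exp (I * θ / 2) * (F (1 / 2 + t * I) - F 0)) +
      (ker θ t : ℂ) * (exp (-(I * θ / 2)) * (F (-(1 / 2) + t * I) - F 0))) (ip.add im') ik, l6,
      zero_add, integral_mul_const, integral_complex_ofReal, e2]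
    push_cast; ring
  · have := integral_boundary_rect_eq_zero_of_differentiableOn G (-(1 / 2) + (-T : ℝ) * I)
      (1 / 2 + T * I) (hG.mono fun z hz => by
        have h1 := hz.1
        simp only [Set.mem_preimage] at h1
        rw [Set.uIcc_of_le (by norm_num)] at h1
        simpa [abs_le] using h1)
    have r1 : ((-(1 / 2) + (-T : ℝ) * I : ℂ)).re = -(1 / 2) := by simp
    have r2 : ((-(1 / 2) + (-T : ℝ) * I : ℂ)).im = -T := by simp
    have r3 : ((1 / 2 + T * I : ℂ)).re = 1 / 2 := by simp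
    have r4 : ((1 / 2 + T * I : ℂ)).im = T := by simp
    rw [r1, r2, r3, r4] at this
    have q1 : (((1 / 2 : ℝ)) : ℂ) = 1 / 2 := by push_cast; rfl
    have q2 : ((-(1 / 2) : ℝ) : ℂ) = -(1 / 2) := by push_cast; rfl
    simp only [q1, q2, hp, hm] at this
    exact this

theorem laplace {h : ℝ → ℂ} (hc : Continuous h) {C : ℝ} (hb : ∀ t, ‖h t‖ ≤ C)
    (h0 : ∀ θ : ℝ, |θ| ≤ 1 → ∫ t, (ker θ t : ℂ) * h t = 0) (s : ℝ) : h s = 0 := by
  let k : ℝ → ℂ := fun t => (ker 0 t : ℂ) * h t
  have hk : Continuous k := (continuous_ofReal.comp (continuous_ker 0)).mul hc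
  have hki : Integrable k := integrable_ker_mul (by simp) hc hb
  have hC : 0 ≤ C := (norm_nonneg _).trans (hb 0)
  have hkb : ∀ (w : ℂ) (t : ℝ), |w.re| < 1 → ‖exp (w * t) * k t‖ * (1 + |t|) ≤
      C * (4 * (1 + t ^ 2)⁻¹) := by
    intro w t hw
    have h1 : ‖exp (w * t)‖ ≤ Real.exp |t| := by
      rw [norm_exp]
      refine Real.exp_le_exp.2 ?_
      have : (w * t).re = w.re * t := by simp
      rw [this]
      calc w.re * t ≤ |w.re * t| := le_abs_self _
        _ = |w.re| * |t| := abs_mul _ _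
        _ ≤ 1 * |t| := by gcongr
        _ = _ := one_mul _
    have h2 : ‖k t‖ ≤ (Real.cosh (π * t))⁻¹ * C := by
      simp only [k, norm_mul, norm_real, Real.norm_of_nonneg (ker_pos 0 t).le]
      simp only [ker, zero_mul, neg_zero, Real.exp_zero, one_div]
      exact mul_le_mul_of_nonneg_left (hb t) (inv_pos.2 (Real.cosh_pos _)).le
    have h3 : 1 + |t| ≤ Real.exp |t| := by linarith [Real.add_one_le_exp |t|]
    have h4 : Real.exp (2 * |t|) = Real.exp |t| * Real.exp |t| := by
      rw [← Real.exp_add]; congr 1; ring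
    have hc' := Real.cosh_pos (π * t)
    rw [norm_mul]
    calc _ ≤ Real.exp |t| * ((Real.cosh (π * t))⁻¹ * C) * Real.exp |t| := by gcongr
      _ = C * (Real.exp (2 * |t|) / Real.cosh (π * t)) := by rw [h4]; field_simp
      _ ≤ _ := by gcongr; exact kb t
  have hbi : Integrable fun t : ℝ => C * (4 * (1 + t ^ 2)⁻¹) :=
    (integrable_inv_one_add_sq.const_mul 4).const_mul C
  let U : Set ℂ := {w | |w.re| < 1}
  have hU : IsOpen U := isOpen_lt (by fun_prop) continuous_const
  let φ : ℂ → ℂ := fun w => ∫ t : ℝ, exp (w * t) * k t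
  have hφ : DifferentiableOn ℂ φ U := by
    intro w hw
    refine (hasDerivAt_integral_of_dominated_loc_of_deriv_le (μ := volume) (hU.mem_nhds hw)
      (F := fun (w : ℂ) (t : ℝ) => exp (w * t) * k t)
      (F' := fun (w : ℂ) (t : ℝ) => exp (w * t) * (1 * t) * k t)
      (Eventually.of_forall fun w => (by fun_prop : Continuous _).aestronglyMeasurable)
      (hbi.mono' (by fun_prop : Continuous _).aestronglyMeasurable
        (Eventually.of_forall fun t => le_trans ?_ (hkb w t hw)))
      (by fun_prop : Continuous _).aestronglyMeasurable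
      (Eventually.of_forall fun t w hw => le_trans ?_ (hkb w t hw)) hbi
      (Eventually.of_forall fun t w _ =>
        (((hasDerivAt_id w).mul_const (t : ℂ)).cexp).mul_const (k t))).2.differentiableAt.differentiableWithinAt
    · exact le_mul_of_one_le_right (norm_nonneg _) (by linarith [abs_nonneg t])
    · rw [show exp (w * t) * (1 * t) * k t = exp (w * t) * k t * t by ring, norm_mul _ (t : ℂ),
        norm_real, Real.norm_eq_abs]
      gcongr; linarith
  have hconv : Convex ℝ U := by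
    have : U = {w : ℂ | -1 < w.re} ∩ {w : ℂ | w.re < 1} := by ext w; simp [U, abs_lt]
    rw [this]
    exact (convex_halfSpace_re_gt _).inter (convex_halfSpace_re_lt _)
  have hz : Set.EqOn φ 0 U := by
    refine (hφ.analyticOnNhd hU).eqOn_zero_of_preconnected_of_frequently_eq_zero
      hconv.isPreconnected (z₀ := 0) (by simp [U]) ?_
    have ht : Tendsto (fun n : ℕ => ((1 / ((n : ℝ) + 1) : ℝ) : ℂ)) atTop (𝓝[≠] 0) := by
      refine tendsto_nhdsWithin_iff.2 ⟨?_, Eventually.of_forall fun n => ?_⟩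
      · exact (continuous_ofReal.tendsto 0).comp tendsto_one_div_add_atTop_nhds_zero_nat
      · exact ofReal_ne_zero.2 (by positivity)
    refine ht.frequently (Eventually.of_forall fun n => ?_).frequently
    have := h0 (-(1 / ((n : ℝ) + 1))) (by
      rw [abs_neg, abs_of_pos (by positivity), div_le_one (by positivity)]
      linarith [Nat.cast_nonneg (α := ℝ) n])
    rw [← this]
    refine integral_congr_ae (Eventually.of_forall fun t => ?_)
    simp only [k, ker, zero_mul, neg_zero, Real.exp_zero, neg_mul, neg_neg]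
    push_cast; ring
  have hF : 𝓕 k = 0 := by
    funext ξ
    rw [Real.fourier_real_eq_integral_exp_smul]
    have := hz (x := -(2 * π * ξ) * I) (by simp [U])
    simp only [φ, Pi.zero_apply] at this ⊢
    rw [← this]
    refine integral_congr_ae (Eventually.of_forall fun t => ?_)
    simp only [smul_eq_mul]
    congr 2
    push_cast; ring
  have := hk.fourierInv_fourier_eq hki (by rw [hF]; exact integrable_zero _ _ _)
  rw [hF] at this
  have h1 : k s = 0 := by rw [← this]; simp [Real.fourierInv_eq]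
  exact (mul_eq_zero.1 h1).resolve_left (ofReal_ne_zero.2 (ker_pos 0 s).ne')

end Crest.Agent.H3.KK
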