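import Crest.Agent.H3.KK.TT1

/-! The real projections of Rieffel and van Daele and the linear Radon–Nikodym lemma. -/

set_option autoImplicit false
open scoped InnerProductSpace Topology ComplexConjugate
open Crest.OpAlg Filter

namespace Crest.Agent.H3.KK

variable {H : Type*} [NormedAddCommGroup H] [InnerProductSpace ℂ H] [CompleteSpace H]

theorem exists_wot {ι : Type*} (ω : Ultrafilter ι) (A : ι → (H →L[ℂ] H)) (c : ℝ)
    (hc : ∀ k, ‖A k‖ ≤ c) :
    ∃ y : H →L[ℂ] H, ∀ u v, Tendsto (fun k => ⟪u, A k v⟫_ℂ) ω (𝓝 ⟪u, y v⟫_ℂ) := by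
  have hb : ∀ u v k, ‖⟪A k v, u⟫_ℂ‖ ≤ c * ‖v‖ * ‖u‖ := fun u v k =>
    (norm_inner_le_norm _ _).trans (by
      gcongr
      exact ((A k).le_opNorm v).trans (by gcongr; exact hc k))
  have hex : ∀ v u, ∃ l, Tendsto (fun k => ⟪A k v, u⟫_ℂ) ω (𝓝 l) := fun v u => by
    obtain ⟨l, -, hl⟩ := (isCompact_closedBall (0 : ℂ) (c * ‖v‖ * ‖u‖)).ultrafilter_le_nhds
      (ω.map fun k => ⟪A k v, u⟫_ℂ) (by
        rw [Ultrafilter.coe_map, le_principal_iff, mem_map]
        exact Eventually.of_forall fun k => by simpa using hb u v k)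
    exact ⟨l, hl⟩
  choose B hB using hex
  let Bl : H →ₗ⋆[ℂ] H →ₗ[ℂ] ℂ := LinearMap.mk₂'ₛₗ (starRingEnd ℂ) (RingHom.id ℂ) B
    (fun v₁ v₂ u => tendsto_nhds_unique (hB (v₁ + v₂) u) (by
      simpa only [map_add, inner_add_left] using (hB v₁ u).add (hB v₂ u)))
    (fun c v u => tendsto_nhds_unique (hB (c • v) u) (by
      simpa only [map_smul, inner_smul_left, smul_eq_mul] using (hB v u).const_mul _))
    (fun v u₁ u₂ => tendsto_nhds_unique (hB v (u₁ + u₂)) (by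
      simpa only [inner_add_right] using (hB v u₁).add (hB v u₂)))
    (fun c v u => tendsto_nhds_unique (hB v (c • u)) (by
      simpa only [inner_smul_right, smul_eq_mul, RingHom.id_apply] using (hB v u).const_mul _))
  have hBl : ∀ v u, ‖Bl v u‖ ≤ c * ‖v‖ * ‖u‖ := fun v u =>
    le_of_tendsto' (hB v u).norm (hb u v)
  let Bc : H →L⋆[ℂ] H →L[ℂ] ℂ := LinearMap.mkContinuous₂ Bl c hBl
  refine ⟨InnerProductSpace.continuousLinearMapOfBilin Bc, fun u v => ?_⟩
  have h1 : ⟪InnerProductSpace.continuousLinearMapOfBilin Bc v, u⟫_ℂ = B v u :=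
    InnerProductSpace.continuousLinearMapOfBilin_apply Bc v u
  have h2 := (Complex.continuous_conj.tendsto _).comp (hB v u)
  rw [← h1, inner_conj_symm] at h2
  refine h2.congr fun k => ?_
  simp only [Function.comp_apply, inner_conj_symm]

/-- Cartesian decomposition inside a von Neumann algebra. -/
theorem exists_cart {M : VonNeumannAlgebra H} {u : H →L[ℂ] H} (hu : u ∈ M) :
    ∃ a ∈ M, ∃ b ∈ M, IsSelfAdjoint a ∧ IsSelfAdjoint b ∧ u = a + Complex.I • b ∧
      star u = a - Complex.I • b := by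
  have h1 : u = (realPart u : H →L[ℂ] H) + Complex.I • (imaginaryPart u : H →L[ℂ] H) :=
    (realPart_add_I_smul_imaginaryPart u).symm
  refine ⟨realPart u, ?_, imaginaryPart u, ?_, (realPart u).2, (imaginaryPart u).2, h1, ?_⟩
  · rw [realPart_apply_coe, ← Complex.coe_smul]
    exact H3Mod.smul_mem' _ (add_mem hu (star_mem hu))
  · rw [imaginaryPart_apply_coe, ← Complex.coe_smul]
    exact H3Mod.smul_mem' _ (H3Mod.smul_mem' _ (sub_mem hu (star_mem hu)))
  · conv_lhs => rw [h1]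
    rw [star_add, star_smul, (realPart u).2.star_eq, (imaginaryPart u).2.star_eq]
    simp [sub_eq_add_neg]

theorem perp_zero {M : VonNeumannAlgebra H} {ξ : H}
    (h : ∀ a ∈ M.commutant, a ξ = 0 → a = 0) {v : H}
    (hv : ∀ a ∈ M, IsSelfAdjoint a → ⟪a ξ, v⟫_ℂ = 0) : v = 0 := by
  let S : Submodule ℂ H := Submodule.span ℂ {w | ∃ a ∈ M, w = a ξ}
  have hS : ∀ w, w ∈ Sᗮ ↔ ∀ a ∈ M, ⟪a ξ, w⟫_ℂ = 0 := by
    intro w
    constructor
    · intro hw a ha
      exact hw _ (Submodule.subset_span ⟨a, ha, rfl⟩)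
    · intro hw x hx
      induction hx using Submodule.span_induction with
      | mem x hx => obtain ⟨a, ha, rfl⟩ := hx; exact hw a ha
      | zero => simp
      | add x y _ _ hx hy => rw [inner_add_left, hx, hy, add_zero]
      | smul c x _ hx => rw [inner_smul_left, hx, mul_zero]
  have hp : Sᗮ.starProjection ∈ M.commutant := by
    rw [VonNeumannAlgebra.IsStarProjection.mem_iff isStarProjection_starProjection,
      M.commutant_commutant]
    intro y hy
    rw [Submodule.range_starProjection, Module.End.mem_invtSubmodule]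
    intro w hw
    change y w ∈ Sᗮ
    rw [hS] at hw ⊢
    intro a ha
    rw [← H3Mod.inner_star_left]
    exact hw (star y * a) (mul_mem (star_mem hy) ha)
  have h0 := h _ hp (by
    rw [Submodule.starProjection_apply_eq_zero_iff]
    exact Submodule.le_orthogonal_orthogonal S (Submodule.subset_span ⟨1, one_mem M, rfl⟩))
  have hvS : v ∈ Sᗮ := (hS v).2 fun u hu => by
    obtain ⟨a, ha, b, hb, ha', hb', rfl, -⟩ := exists_cart hu
    rw [ContinuousLinearMap.add_apply, ContinuousLinearMap.smul_apply, inner_add_left,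
      inner_smul_left, hv a ha ha', hv b hb hb']
    simp
  rw [← Submodule.starProjection_eq_self_iff.2 hvS, h0]; rfl

theorem op_ext {M : VonNeumannAlgebra H} {ξ : H}
    (h : ∀ a ∈ M.commutant, a ξ = 0 → a = 0) {X Y : H →L[ℂ] H}
    (hXY : ∀ a ∈ M, IsSelfAdjoint a → X (a ξ) = Y (a ξ)) : X = Y := by
  refine star_injective ?_
  ext v
  refine sub_eq_zero.1 (perp_zero h fun a ha ha' => ?_)
  rw [inner_sub_right, H3Mod.inner_star_right, H3Mod.inner_star_right, hXY a ha ha', sub_self]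

open scoped ClosedSubmodule in
theorem exists_P (M : VonNeumannAlgebra H) (ξ : H) : ∃ P : H →L[ℝ] H,
    (∀ v w, (⟪P v, w⟫_ℂ).re = (⟪v, P w⟫_ℂ).re) ∧ (∀ v, P (P v) = P v) ∧
    (∀ a ∈ M, IsSelfAdjoint a → P (a ξ) = a ξ) ∧
    ∀ v, ∀ ε > 0, ∃ a ∈ M, IsSelfAdjoint a ∧ ‖P v - a ξ‖ < ε := by
  let S : Submodule ℝ H :=
    { carrier := {w | ∃ a ∈ M, IsSelfAdjoint a ∧ w = a ξ}
      add_mem' := by
        rintro _ _ ⟨a, ha, ha', rfl⟩ ⟨b, hb, hb', rfl⟩
        exact ⟨a + b, add_mem ha hb, ha'.add hb', rfl⟩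
      zero_mem' := ⟨0, zero_mem M, .zero _, rfl⟩
      smul_mem' := by
        rintro c _ ⟨a, ha, ha', rfl⟩
        exact ⟨(c : ℂ) • a, H3Mod.smul_mem' _ ha, IsSelfAdjoint.smul (by simp [IsSelfAdjoint]) ha',
          rfl⟩ }
  refine ⟨S.topologicalClosure.starProjection, fun v w =>
    Submodule.inner_starProjection_left_eq_right S.topologicalClosure v w, fun v =>
    Submodule.starProjection_eq_self_iff.2 (Submodule.starProjection_apply_mem _ _),
    fun a ha ha' => Submodule.starProjection_eq_self_iff.2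
      (S.le_topologicalClosure ⟨a, ha, ha', rfl⟩), fun v ε hε => ?_⟩
  obtain ⟨_, ⟨a, ha, ha', rfl⟩, hw⟩ := Metric.mem_closure_iff.1
    (Submodule.starProjection_apply_mem S.topologicalClosure v) ε hε
  exact ⟨a, ha, ha', by rwa [dist_eq_norm] at hw⟩

theorem sign_lemma {M : VonNeumannAlgebra H} {h x' : H →L[ℂ] H} (hh : h ∈ M)
    (hs : IsSelfAdjoint h) (hx' : x' ∈ M.commutant) (ξ : H) {ε : ℝ} (hε : 0 < ε) :
    ∃ x ∈ M, IsSelfAdjoint x ∧ ‖x‖ ≤ 1 ∧ (⟪h ξ, x ξ⟫_ℂ).im = 0 ∧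
      -(‖x'‖ * ((⟪h ξ, x ξ⟫_ℂ).re + ε * ‖ξ‖ ^ 2)) ≤ (⟪h ξ, x' ξ⟫_ℂ).re := by
  have hm : ∀ t : ℝ, 0 < max |t| ε := fun t => lt_max_of_lt_right hε
  have hmem : ∀ f : ℝ → ℝ, cfc f h ∈ M := fun f => H3Mod.mem_of_comm M _ fun z hz =>
    (Commute.cfc_real ((VonNeumannAlgebra.mem_commutant_iff.1 hz) h hh) f).eq.symm
  have c1 : Continuous fun t : ℝ => √(max |t| ε) := by fun_prop
  have c2 : Continuous fun t : ℝ => t / max |t| ε :=
    Continuous.div continuous_id (by fun_prop) fun t => (hm t).ne'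
  set c := cfc (fun t : ℝ => √(max |t| ε)) h with hc
  set x := cfc (fun t : ℝ => t / max |t| ε) h with hx
  have hcs : IsSelfAdjoint c := cfc_predicate _ _
  have hxs : IsSelfAdjoint x := cfc_predicate _ _
  have hxn : ‖x‖ ≤ 1 := norm_cfc_le zero_le_one fun t _ => by
    rw [Real.norm_eq_abs, abs_div, abs_of_pos (hm t), div_le_one (hm t)]
    exact le_max_left _ _
  have e1 : c * x * c = h := by
    rw [hc, hx, ← cfc_mul _ _ h c1.continuousOn c2.continuousOn,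
      ← cfc_mul _ _ h (c1.fun_mul c2).continuousOn c1.continuousOn]
    conv_rhs => rw [← cfc_id' ℝ h]
    refine cfc_congr fun t _ => ?_
    have := Real.mul_self_sqrt (hm t).le
    have h2 := (hm t).ne'
    calc √(max |t| ε) * (t / max |t| ε) * √(max |t| ε)
        = √(max |t| ε) * √(max |t| ε) * (t / max |t| ε) := by ring
      _ = t := by rw [this]; field_simp
  have e2 : h * x = cfc (fun t : ℝ => t * (t / max |t| ε)) h := by
    rw [cfc_mul (fun t => t) _ h continuousOn_id c2.continuousOn, cfc_id' ℝ h]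
  have e3 : ‖c * c - h * x‖ ≤ ε := by
    rw [e2, hc, ← cfc_mul _ _ h c1.continuousOn c1.continuousOn,
      ← cfc_sub _ _ h (c1.fun_mul c1).continuousOn (continuous_id'.fun_mul c2).continuousOn]
    refine norm_cfc_le hε.le fun t _ => ?_
    rw [Real.mul_self_sqrt (hm t).le, Real.norm_eq_abs]
    rcases le_total |t| ε with h1 | h1
    · rw [max_eq_right h1, abs_le]
      have h2 : t * (t / ε) ≤ ε := by
        rw [← mul_div_assoc, div_le_iff₀ hε, ← abs_mul_abs_self]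
        gcongr
      have h3 : 0 ≤ t * (t / ε) := by
        rw [← mul_div_assoc]; exact div_nonneg (mul_self_nonneg t) hε.le
      constructor <;> linarith
    · have h2 : |t| ≠ 0 := (hε.trans_le h1).ne'
      rw [max_eq_left h1, ← mul_div_assoc, ← abs_mul_abs_self, mul_div_assoc, div_self h2]
      simpa using hε.le
  have e4 : ⟪h ξ, x ξ⟫_ℂ = ⟪ξ, (h * x) ξ⟫_ℂ := by
    rw [← H3Mod.inner_star_right, hs.star_eq]; rfl
  refine ⟨x, hmem _, hxs, hxn, ?_, ?_⟩
  · have h1 : IsSelfAdjoint (h * x) := by rw [e2]; exact cfc_predicate _ _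
    rw [← Complex.conj_eq_iff_im, e4, inner_conj_symm, ← H3Mod.inner_star_right, h1.star_eq]
  · have h1 : ⟪h ξ, x' ξ⟫_ℂ = ⟪x (c ξ), x' (c ξ)⟫_ℂ := by
      rw [H3Mod.comm_of_mem (hmem _) hx', ← H3Mod.inner_star_left c, hcs.star_eq, ← e1]; rfl
    have h2 : ‖c ξ‖ ^ 2 ≤ (⟪h ξ, x ξ⟫_ℂ).re + ε * ‖ξ‖ ^ 2 := by
      have h3 : (⟪c ξ, c ξ⟫_ℂ).re = ‖c ξ‖ ^ 2 := inner_self_eq_norm_sq (𝕜 := ℂ) _
      have h4 : ⟪c ξ, c ξ⟫_ℂ = ⟪h ξ, x ξ⟫_ℂ + ⟪ξ, (c * c - h * x) ξ⟫_ℂ := by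
        rw [e4, ← inner_add_right, ← H3Mod.inner_star_right, hcs.star_eq]
        simp
      have h5 : (⟪ξ, (c * c - h * x) ξ⟫_ℂ).re ≤ ε * ‖ξ‖ ^ 2 :=
        calc _ ≤ ‖ξ‖ * ‖(c * c - h * x) ξ‖ := (Complex.re_le_norm _).trans (norm_inner_le_norm _ _)
          _ ≤ ‖ξ‖ * (ε * ‖ξ‖) := by
            gcongr; exact (ContinuousLinearMap.le_opNorm _ _).trans (by gcongr)
          _ = _ := by ring
      rw [← h3, h4, Complex.add_re]; linarith
    have h6 : |(⟪x (c ξ), x' (c ξ)⟫_ℂ).re| ≤ ‖x'‖ * ‖c ξ‖ ^ 2 :=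
      calc _ ≤ ‖x (c ξ)‖ * ‖x' (c ξ)‖ :=
            (Complex.abs_re_le_norm _).trans (norm_inner_le_norm _ _)
        _ ≤ (1 * ‖c ξ‖) * (‖x'‖ * ‖c ξ‖) := by
            gcongr
            · exact (x.le_opNorm _).trans (by gcongr)
            · exact x'.le_opNorm _
        _ = _ := by ring
    rw [h1]
    nlinarith [(abs_le.1 h6).1, norm_nonneg x']

theorem exists_rn {M : VonNeumannAlgebra H} {ξ : H} {P : H →L[ℝ] H}
    (hP : ∀ v w, (⟪P v, w⟫_ℂ).re = (⟪v, P w⟫_ℂ).re)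
    (hd : ∀ v, ∀ ε > 0, ∃ a ∈ M, IsSelfAdjoint a ∧ ‖P v - a ξ‖ < ε)
    {x' : H →L[ℂ] H} (hx' : x' ∈ M.commutant) {μ : ℂ} (hμ : 0 < μ.re) :
    ∃ x ∈ M, IsSelfAdjoint x ∧ P (μ • x ξ) = P (x' ξ) := by
  set r := ‖x'‖ / μ.re with hr
  have hr0 : 0 ≤ r := by positivity
  let S : Set H := {w | ∃ x ∈ M, IsSelfAdjoint x ∧ ‖x‖ ≤ r ∧ w = P (μ • x ξ)}
  have hS : Convex ℝ S := by
    rintro _ ⟨x, hx, hxs, hxn, rfl⟩ _ ⟨y, hy, hys, hyn, rfl⟩ a b ha hb hab
    refine ⟨(a : ℂ) • x + (b : ℂ) • y, add_mem (H3Mod.smul_mem' _ hx) (H3Mod.smul_mem' _ hy),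
      (IsSelfAdjoint.smul (by simp [IsSelfAdjoint]) hxs).add
        (IsSelfAdjoint.smul (by simp [IsSelfAdjoint]) hys), ?_, ?_⟩
    · refine (norm_add_le _ _).trans ?_
      rw [norm_smul, norm_smul, Complex.norm_real, Complex.norm_real, Real.norm_of_nonneg ha,
        Real.norm_of_nonneg hb]
      calc a * ‖x‖ + b * ‖y‖ ≤ a * r + b * r := by gcongr
        _ = r := by rw [← add_mul, hab, one_mul]
    · rw [← map_smul P, ← map_smul P, ← map_add]
      congr 1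
      simp only [ContinuousLinearMap.add_apply, ContinuousLinearMap.smul_apply, smul_add,
        Complex.coe_smul, smul_comm μ]
  have hcl : P (x' ξ) ∈ closure S := by
    by_contra hn
    obtain ⟨f, u, h1, h2⟩ := RCLike.geometric_hahn_banach_point_closed (𝕜 := ℂ) hS.closure
      isClosed_closure hn
    set k := (InnerProductSpace.toDual ℂ H).symm f
    have hk : ∀ v, RCLike.re (f (P v)) = (⟪P k, v⟫_ℂ).re := fun v => by
      rw [hP, InnerProductSpace.toDual_symm_apply]; rfl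
    rw [hk] at h1
    set m := u - (⟪P k, x' ξ⟫_ℂ).re with hm
    have hm0 : 0 < m := by linarith
    set C := ‖x' ξ‖ + ‖μ‖ * (r * ‖ξ‖) + ‖x'‖ * ‖ξ‖ ^ 2 + 1 with hC
    have hC0 : 0 < C := by positivity
    set η := m / C with hη
    have hη0 : 0 < η := by positivity
    obtain ⟨h, hh, hs, hhk⟩ := hd k η hη0
    obtain ⟨x, hx, hxs, hxn, him, hle⟩ := sign_lemma hh hs hx' ξ hη0
    have h3 := h2 _ (subset_closure ⟨((-r : ℝ) : ℂ) • x, H3Mod.smul_mem' _ hx,
      IsSelfAdjoint.smul (by simp [IsSelfAdjoint]) hxs, by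
        rw [norm_smul, Complex.norm_real, norm_neg, Real.norm_of_nonneg hr0]
        nlinarith, rfl⟩)
    rw [hk] at h3
    have hest : ∀ w, |(⟪P k, w⟫_ℂ).re - (⟪h ξ, w⟫_ℂ).re| ≤ η * ‖w‖ := fun w => by
      rw [← Complex.sub_re, ← inner_sub_left]
      exact (Complex.abs_re_le_norm _).trans ((norm_inner_le_norm _ _).trans (by gcongr))
    have h4 := (abs_le.1 (hest (x' ξ))).1
    have h5 := (abs_le.1 (hest (μ • (((-r : ℝ) : ℂ) • x) ξ))).2
    have h6 : (⟪h ξ, μ • (((-r : ℝ) : ℂ) • x) ξ⟫_ℂ).re = -(‖x'‖ * (⟪h ξ, x ξ⟫_ℂ).re) := by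
      rw [ContinuousLinearMap.smul_apply, inner_smul_right, inner_smul_right]
      simp only [Complex.mul_re, Complex.ofReal_re, Complex.ofReal_im, him, Complex.mul_im, hr]
      field_simp
      ring
    have h7 : ‖μ • (((-r : ℝ) : ℂ) • x) ξ‖ ≤ ‖μ‖ * (r * ‖ξ‖) := by
      rw [ContinuousLinearMap.smul_apply, norm_smul, norm_smul, Complex.norm_real, norm_neg,
        Real.norm_of_nonneg hr0]
      gcongr
      exact (x.le_opNorm _).trans (by nlinarith [norm_nonneg ξ])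
    have h8 : η * C = m := by rw [hη]; field_simp
    have h9 := mul_le_mul_of_nonneg_left h7 hη0.le
    rw [hC] at h8
    nlinarith
  obtain ⟨w, hw, hlim⟩ := mem_closure_iff_seq_limit.1 hcl
  choose x hx hxs hxn hxw using hw
  obtain ⟨y, hy⟩ := exists_wot (hyperfilter ℕ) x r hxn
  refine ⟨y, H3Mod.mem_of_comm M _ fun z hz => ?_, ?_, ?_⟩
  · ext v
    refine ext_inner_left ℂ fun u => ?_
    change ⟪u, z (y v)⟫_ℂ = ⟪u, y (z v)⟫_ℂ
    rw [← H3Mod.inner_star_left]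
    refine tendsto_nhds_unique (hy _ _) ((hy u (z v)).congr fun k => ?_)
    rw [H3Mod.inner_star_left, H3Mod.comm_of_mem (hx k) hz]
  · ext v
    refine ext_inner_left ℂ fun u => ?_
    rw [H3Mod.inner_star_right, ← inner_conj_symm]
    refine tendsto_nhds_unique ((Complex.continuous_conj.tendsto _).comp (hy v u))
      ((hy u v).congr fun k => ?_)
    rw [Function.comp_apply, inner_conj_symm, ← H3Mod.inner_star_right, (hxs k).star_eq]
  · have key : ∀ u, (⟪u, P (μ • y ξ)⟫_ℂ).re = (⟪u, P (x' ξ)⟫_ℂ).re := by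
      intro u
      have t1 : Tendsto (fun k => (⟪u, w k⟫_ℂ).re) (hyperfilter ℕ) (𝓝 (⟪u, P (x' ξ)⟫_ℂ).re) :=
        ((Complex.continuous_re.tendsto _).comp
          (tendsto_const_nhds.inner (𝕜 := ℂ) hlim)).mono_left Nat.hyperfilter_le_atTop
      refine tendsto_nhds_unique ?_ t1
      rw [← hP, inner_smul_right]
      refine ((Complex.continuous_re.tendsto _).comp ((hy (P u) ξ).const_mul μ)).congr fun k => ?_
      rw [Function.comp_apply, hxw, ← hP, inner_smul_right]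
    have h1 := key (P (μ • y ξ) - P (x' ξ))
    rw [← sub_eq_zero, ← Complex.sub_re, ← inner_sub_right] at h1
    have h2 : (⟪P (μ • y ξ) - P (x' ξ), P (μ • y ξ) - P (x' ξ)⟫_ℂ).re =
        ‖P (μ • y ξ) - P (x' ξ)‖ ^ 2 := inner_self_eq_norm_sq (𝕜 := ℂ) _
    rw [h2] at h1
    exact sub_eq_zero.1 (norm_eq_zero.1 (pow_eq_zero_iff two_ne_zero |>.1 h1))

end Crest.Agent.H3.KK
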